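import Vale.Agent.P032.H695.JPar
import Vale.Agent.P032.H416.Props2

/-!
# P032: the literal block `ParB`
-/

open Set Filter Topology Metric

noncomputable section

namespace Vale.Agent.P032.H695

open Vale.Agent.P032.Six Vale.Agent.P032.S5.H767

variable {U : Fin 6 → Set ℂ} {T : ℂ → Set (Fin 6)} {z : ℂ} {e f : Fin 6}

/-- **Parity at a full point without other four coloured points on the circle.** -/
theorem par_full (h : Irr U T) (hF : FullP T z) (hef : e ≠ f) (he : e ∉ T z) (hf : f ∉ T z) :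
    Par T z e f := by
  obtain ⟨⟨a, b, c, d, α, β, hz, hne, hle, hTα, hTβ, harc, honly, hends⟩, h4⟩ := hF
  have hpi := Real.pi_pos
  have hnd : [a, b, c, d, e, f].Nodup := by
    rw [hz.pal] at he hf
    simp only [mem_insert_iff, mem_singleton_iff, not_or] at he hf
    obtain ⟨ea, eb, ec, ed⟩ := he
    obtain ⟨fa, fb, fc, fd⟩ := hf
    have := hz.ab
    have := hz.ac
    have := hz.ad
    have := hz.bc
    have := hz.bd
    have := hz.cd
    simp only [List.nodup_cons, List.mem_cons, List.not_mem_nil, or_false, not_or, List.nodup_nil,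
      and_true, not_false_eq_true]
    refine ⟨⟨?_, ?_, ?_, ?_, ?_⟩, ⟨?_, ?_, ?_, ?_⟩, ⟨?_, ?_, ?_⟩, ⟨?_, ?_⟩, ?_⟩ <;>
      first | assumption | (exact Ne.symm (by assumption))
  have Cc := ctr_of h hz hnd
  set m := min α β with hm
  set L := max α β - min α β with hL
  have hL0 : 0 ≤ L := by rw [hL]; linarith [min_le_max (a := α) (b := β)]
  have hL1 : L ≤ Real.pi / 3 := by
    rw [hL, max_sub_min_eq_abs']
    rwa [abs_sub_comm]
  have hpt : ∀ t : ℝ, pt z (m / (Real.pi / 3) + t) = z + cis (m + t * (Real.pi / 3)) := by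
    intro t
    unfold pt
    congr 2
    field_simp
  have hmem : ∀ t ∈ Icc (0 : ℝ) (L / (Real.pi / 3)), m + t * (Real.pi / 3) ∈ uIcc α β := by
    intro t ht
    have h1 : t * (Real.pi / 3) ≤ L := by
      have := ht.2
      rwa [le_div_iff₀ (by positivity)] at this
    have h2 : 0 ≤ t * (Real.pi / 3) := mul_nonneg ht.1 (by positivity)
    show _ ∈ Icc (min α β) (max α β)
    constructor
    · rw [← hm]; linarith
    · rw [← hm] at hL; linarith
  -- palettes of the closed arc
  have hclT : ∀ θ ∈ uIcc α β, T (z + cis θ) = {a, b} ∨ T (z + cis θ) = T z := by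
    intro θ hθ
    by_cases h1 : θ = α
    · right; rw [h1]; exact hTα
    by_cases h2 : θ = β
    · right; rw [h2]; exact hTβ
    left
    refine harc θ ?_
    rw [mem_uIcc] at hθ
    rcases hθ with h3 | h3
    · exact mem_uIoo_of_lt (lt_of_le_of_ne h3.1 (Ne.symm h1)) (lt_of_le_of_ne h3.2 h2)
    · exact mem_uIoo_of_gt (lt_of_le_of_ne h3.1 (Ne.symm h2)) (lt_of_le_of_ne h3.2 h1)
  have hab : ({a, b} : Set (Fin 6)) ⊆ T z := by
    rw [hz.pal]
    rintro x (rfl | hx)
    · exact Or.inl rfl
    · rw [mem_singleton_iff] at hx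
      exact Or.inr (Or.inl hx)
  have hclab : ∀ θ ∈ uIcc α β, ({a, b} : Set (Fin 6)) ⊆ T (z + cis θ) := by
    intro θ hθ
    rcases hclT θ hθ with h1 | h1
    · rw [h1]
    · rw [h1]; exact hab
  have hcont : Continuous fun θ : ℝ => z + cis θ := continuous_const.add continuous_cis
  -- the closure of the exact arcs
  have hcl : ∀ q ∈ closure (Ex T z {a, b}), ∃ θ ∈ uIcc α β, q = z + cis θ := by
    have h1 : IsClosed ((fun θ : ℝ => z + cis θ) '' uIcc α β) :=
      (isCompact_uIcc.image hcont).isClosed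
    have h2 : closure (Ex T z {a, b}) ⊆ (fun θ : ℝ => z + cis θ) '' uIcc α β := by
      refine closure_minimal (fun y hy => ?_) h1
      obtain ⟨θ, hθ, hyθ⟩ := honly y hy.1 (ex_self hy)
      exact ⟨θ, ⟨hθ.1.le, hθ.2.le⟩, hyθ.symm⟩
    intro q hq
    obtain ⟨θ, hθ, hqθ⟩ := h2 hq
    exact ⟨θ, hθ, hqθ.symm⟩
  have hin : ∀ θ ∈ uIcc α β, z + cis θ ∈ closure (Ex T z {a, b}) := by
    intro θ hθ
    have h1 : θ ∈ closure (uIoo α β) := by
      have h2 : closure (Ioo (min α β) (max α β)) = Icc (min α β) (max α β) := by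
        refine closure_Ioo ?_
        intro h3
        have k1 := le_max_left α β
        have k2 := le_max_right α β
        have k3 := min_le_left α β
        have k4 := min_le_right α β
        rw [← h3] at k1 k2
        exact hne (le_antisymm (k2.trans k3) (k1.trans k4))
      show θ ∈ closure (Ioo (min α β) (max α β))
      rw [h2]; exact hθ
    have h3 := (hcont.closure_preimage_subset (Ex T z {a, b}))
    refine h3 (closure_mono (fun s hs => ?_) h1)
    have h4 := harc s hs
    exact h.arc_of_eq hz.ab (hab (Or.inl rfl)) (hab (Or.inr rfl)) (dist_add_cis z s) h4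
  refine Ctr.par Cc (u0 := m / (Real.pi / 3)) (α := L / (Real.pi / 3))
    (by positivity) (by rw [div_le_one (by positivity)]; exact hL1) (fun t ht => ?_)
    (fun t ht hq => ?_) (fun t ht hq => ?_) fun htr y y' hy hy' hyy hy2 hy2' => ?_
  · rw [hpt]
    have h1 : T (z + cis (m + t * (Real.pi / 3))) ⊆ T z := by
      rcases hclT _ (hmem t ht) with h1 | h1
      · rw [h1]; exact hab
      · rw [h1]
    exact ⟨fun hc => he (h1 hc), fun hc => hf (h1 hc)⟩
  · obtain ⟨θ, hθ, hq'⟩ := hcl _ hq
    rw [hpt] at hq'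
    obtain ⟨n, hn⟩ := cis_eq (add_left_cancel hq')
    have hθ' : θ ∈ Icc (min α β) (max α β) := hθ
    have b1 : L < t * (Real.pi / 3) := by
      have := ht.1
      rwa [div_lt_iff₀ (by positivity)] at this
    have b2 : t * (Real.pi / 3) < 2 * Real.pi := by nlinarith [ht.2]
    rw [← hm] at hθ' hL
    have b3 : 0 < (n : ℝ) * (2 * Real.pi) := by linarith [hθ'.2]
    have b4 : (n : ℝ) * (2 * Real.pi) < 2 * Real.pi := by linarith [hθ'.1]
    have c1 : (0 : ℝ) < n := by
      by_contra hc
      have : (n : ℝ) * (2 * Real.pi) ≤ 0 := mul_nonpos_of_nonpos_of_nonneg (not_lt.1 hc)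
        (by positivity)
      linarith
    have c2 : (n : ℝ) < 1 := by
      by_contra hc
      have : 1 * (2 * Real.pi) ≤ (n : ℝ) * (2 * Real.pi) :=
        mul_le_mul_of_nonneg_right (not_lt.1 hc) (by positivity)
      linarith
    have c3 : (0 : ℤ) < n := by exact_mod_cast c1
    have c4 : n < (1 : ℤ) := by exact_mod_cast c2
    omega
  · have e1 : m / (Real.pi / 3) + 3 + t = m / (Real.pi / 3) + t + 3 := by ring
    rw [e1, pt_three, hpt] at hq
    have h1 := hclab _ (hmem t ht)
    have h2 := sub_of_closure h hq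
    exact h.anti hz (dist_add_cis z _) (h.sub _ (h1 (Or.inl rfl))) (h.sub _ (h1 (Or.inr rfl)))
      (h.sub _ (h2 (Or.inl rfl))) (h.sub _ (h2 (Or.inr rfl)))
  · -- no swaps
    have h3 : ∀ q, dist q z = 1 → q ∉ closure (Ex T z {a, b}) → (T q).ncard ≤ 3 := by
      intro q hq hqc
      by_contra hcon
      rcases hends q hq (h4 q hq (by omega)) with h5 | h5
      · exact hqc (h5 ▸ hin α left_mem_uIcc)
      · exact hqc (h5 ▸ hin β right_mem_uIcc)
    rintro ⟨l, n, hln, k1, k2, k3, k4⟩
    exact Cc.noswap hln hyy (h3 y hy hy2) (h3 y' hy' hy2') k1 k2 k3 k4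

/-- **The block.** -/
theorem parB : ParB := by
  intro U T hD _ hF z hz e f hef he hf
  exact par_full hD.irr (hF z hz) hef he hf

end Vale.Agent.P032.H695
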