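import Vale.Agent.P032.H695.TwoSq2

/-!
# P032: the word with two squares, from the blocks of both circles

`Wd T z a b c d e f φ x0 x0' x1 x1' x2 x2'` : the circle `S(z)` has the label word
`C|A A>f e>C C>f f>A A>e f>C`, seen from the `J`-partner in the direction `φ` (angles in units of 60
degrees; blocks `[x0, x0']`, `[x1, x1']`, `[x2, x2']`).
`wd_false` : two `J`-partners with this word and the coincidences of `SG.j1j1` do not exist.
-/

open Set Filter Topology Metric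

noncomputable section

namespace Vale.Agent.P032.H695

open Vale.Agent.P032.Six Vale.Agent.P032.S5.H450 Vale.Agent.P032.H471
  Vale.Agent.P032.S5.H767 Vale.Agent.P032.H594

variable {U : Fin 6 → Set ℂ} {T : ℂ → Set (Fin 6)} {z y : ℂ} {a b c d e f : Fin 6}

/-- a colour of `z` at a point of order three with a pair of `z` is a colour of the pair -/
theorem third695 (h : Irr U T) (hz : DPt T z a b c d) {w : ℂ} (hwz : dist w z = 1)
    (h3 : (T w).ncard ≤ 3) (hab : ({a, b} : Set (Fin 6)) ⊆ T w) {g : Fin 6} (hgw : g ∈ T w)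
    (hgz : g ∈ T z) : g = a ∨ g = b := by
  by_contra hgP
  push Not at hgP
  have hgP' : g ∉ ({a, b} : Set (Fin 6)) := by
    rintro (h1 | h1)
    · exact hgP.1 h1
    · exact hgP.2 h1
  have hT : T w = insert g {a, b} := by
    symm
    refine Set.eq_of_subset_of_ncard_le (insert_subset hgw hab) ?_ (Set.toFinite _)
    rw [Set.ncard_insert_of_notMem hgP' (Set.toFinite _), Set.ncard_pair hz.ab]
    exact h3
  obtain ⟨m, hm, hcov⟩ : ∃ m ∈ ({c, d} : Set (Fin 6)), T z ⊆ insert m (T w) := by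
    rw [hz.pal] at hgz
    rcases hgz with h4 | h4 | h4 | h4
    · exact absurd (Or.inl h4) hgP'
    · exact absurd (Or.inr h4) hgP'
    · refine ⟨d, by simp, ?_⟩
      rw [hz.pal, hT, h4]
      rintro i (rfl | rfl | rfl | rfl) <;> simp
    · rw [mem_singleton_iff] at h4
      refine ⟨c, by simp, ?_⟩
      rw [hz.pal, hT, h4]
      rintro i (rfl | rfl | rfl | rfl) <;> simp
  obtain ⟨p2, hp2⟩ := hz.arc2
  obtain ⟨q2, hq2, hne, hop⟩ := hp2.exists_off_line (y := p2)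
  have m1 : m ∈ T q2 := by rw [hq2.mem]; exact hm
  have m2 : m ∈ T p2 := by rw [hp2.mem]; exact hm
  by_cases h1 : q2 ≠ w ∧ q2 + w ≠ 2 * z
  · exact h.third_notMem hwz h3 hcov hq2.1 (h.sub _ m1) h1.1 h1.2
  · refine h.third_notMem hwz h3 hcov hp2.1 (h.sub _ m2) (fun h5 => ?_) fun h5 => ?_
    · by_cases h6 : q2 = w
      · exact hne (h6.trans h5.symm)
      · push Not at h1
        exact hop (by rw [h5]; exact h1 h6)
    · by_cases h6 : q2 = w
      · exact hop (by rw [h6, add_comm]; exact h5)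
      · push Not at h1
        exact hne (by linear_combination (h1 h6) - h5)

/-- a point with a pair of `z` only -/
theorem ex_pair (h : Irr U T) (hz : DPt T z a b c d) {w : ℂ} (hw : dist w z = 1)
    (hT : T w = {a, b}) : w ∈ Ex T z {a, b} :=
  ⟨hw, h.pair_open (Set.ncard_pair hz.ab) (by rw [hz.pal]; rintro i (rfl | rfl) <;> simp)
    hT.subset⟩

/-- a branch with a pair of `z` -/
theorem cl_branch (h : Irr U T) (hz : DPt T z a b c d) {v : ℂ} (hv : dist v z = 1) {τ : ℝ}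
    (hb : ∀ᶠ t in 𝓝[>] (0 : ℝ), T (z + (v - z) * cis (τ * t)) = {a, b}) :
    v ∈ closure (Ex T z {a, b}) := by
  have hc : Tendsto (fun t : ℝ => z + (v - z) * cis (τ * t)) (𝓝[>] 0) (𝓝 v) := by
    have h1 : Continuous fun t : ℝ => z + (v - z) * cis (τ * t) := by
      have := continuous_cis
      fun_prop
    have h2 := h1.tendsto 0
    have e : z + (v - z) * cis (τ * 0) = v := by simp [cis]
    rw [e] at h2
    exact h2.mono_left nhdsWithin_le_nhds
  refine mem_closure_of_tendsto hc (hb.mono fun t ht => ex_pair h hz ?_ ht)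
  rw [dist_eq_norm, add_sub_cancel_left, norm_mul, ← dist_eq_norm, hv, one_mul, norm_cis]

theorem cl_ee (h : Irr U T) (hz : DPt T z a b c d) {v : ℂ} (hE : EE T z v)
    (hi : T z ∩ T v = {a, b}) : v ∈ closure (Ex T z {a, b}) := by
  obtain ⟨⟨o, ho, hd, -, -, -, ε, hε, hg⟩, -⟩ := hE
  refine cl_branch h hz hd (τ := -o) ?_
  filter_upwards [Ioo_mem_nhdsGT hε] with t ht
  have := hg t ht
  rw [hi] at this
  rw [neg_mul]
  exact this

/-- all points with a pair of `z` are in the closure of the exact arcs, if both networks are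
comp -/
theorem cl_pair (h : Irr U T) (hS : Sec4 T) (hz : DPt T z a b c d)
    (nd : [a, b, c, d, e, f].Nodup) (hJ : ∀ v, dist v z = 1 → (T v).ncard ≤ 3 ∨ T v = T z)
    (E1 : ∃ v q, EE T z v ∧ EE T z q ∧ T v = {a, b, e} ∧ T q = {c, d, f})
    (E2 : ∃ v q, EE T z v ∧ EE T z q ∧ T v = {a, b, f} ∧ T q = {c, d, e}) {w : ℂ}
    (hw : dist w z = 1) (ha : a ∈ T w) (hb : b ∈ T w) : w ∈ closure (Ex T z {a, b}) := by
  obtain ⟨⟨ab, ac, ad, ae, af⟩, ⟨bc, bd, be, bf⟩, ⟨cd, ce, cf⟩, ⟨de, df⟩, ef⟩ :=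
    S5.H349.nd_ne nd
  have eT : e ∉ T z ∧ f ∉ T z := by
    rw [hz.pal]
    simp only [mem_insert_iff, mem_singleton_iff, not_or]
    exact ⟨⟨ae.symm, be.symm, ce.symm, de.symm⟩, ⟨af.symm, bf.symm, cf.symm, df.symm⟩⟩
  have hab : ({a, b} : Set (Fin 6)) ⊆ T w := by rintro i (rfl | rfl) <;> assumption
  rcases hJ w hw with h3 | h3
  swap
  · obtain ⟨τ, -, k1, -⟩ := h.j_sides hz hw h3
    exact cl_branch h hz hw k1
  have end3 : ∀ g, g ∉ T z → g ∈ T w → T w = {a, b, g} := by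
    intro g hg hgy
    have ga : a ≠ g := fun h1 => hg (by rw [← h1, hz.pal]; simp)
    have gb : b ≠ g := fun h1 => hg (by rw [← h1, hz.pal]; simp)
    refine (Set.eq_of_subset_of_ncard_le (s := {a, b, g}) ?_ ?_ (Set.toFinite _)).symm
    · rintro i (rfl | rfl | rfl)
      · exact ha
      · exact hb
      · exact hgy
    · rw [Set.ncard_eq_three.2 ⟨a, b, g, ab, ga, gb, rfl⟩]; exact h3
  have key : ∀ g, g ∉ T z → g ∈ T w → (∃ v q, EE T z v ∧ EE T z q ∧ T v = {a, b, g} ∧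
      T q = (T v)ᶜ) → w ∈ closure (Ex T z {a, b}) := by
    rintro g hg hgw ⟨v, q, e1, e2, e3, e4⟩
    have h4 := end3 g hg hgw
    have h5 := auto471 h hS e1 e2 e4 hw (by rw [h4, e3])
    exact cl_ee h hz h5 (inter_arc hz hg h4)
  have nd' : [a, b, e, c, d, f].Nodup := by
    simp only [List.nodup_cons, List.mem_cons, List.not_mem_nil, or_false, not_or, List.nodup_nil,
      and_true, not_false_eq_true]
    exact ⟨⟨ab, ae, ac, ad, af⟩, ⟨be, bc, bd, bf⟩, ⟨ce.symm, de.symm, ef⟩, ⟨cd, cf⟩, df⟩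
  have nd'' : [a, b, f, c, d, e].Nodup := by
    simp only [List.nodup_cons, List.mem_cons, List.not_mem_nil, or_false, not_or, List.nodup_nil,
      and_true, not_false_eq_true]
    exact ⟨⟨ab, af, ac, ad, ae⟩, ⟨bf, bc, bd, be⟩, ⟨cf.symm, df.symm, ef.symm⟩, ⟨cd, ce⟩, de⟩
  by_cases he : e ∈ T w
  · obtain ⟨v, q, e1, e2, e3, e4⟩ := E1
    exact key e eT.1 he ⟨v, q, e1, e2, e3, by rw [e3, e4, compl_of_nodup nd']⟩
  by_cases hf : f ∈ T w
  · obtain ⟨v, q, e1, e2, e3, e4⟩ := E2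
    exact key f eT.2 hf ⟨v, q, e1, e2, e3, by rw [e3, e4, compl_of_nodup nd'']⟩
  refine subset_closure (ex_pair h hz hw (Subset.antisymm (fun i hi => ?_) hab))
  rcases nd_all nd i with rfl | rfl | rfl | rfl | rfl | rfl
  · exact Or.inl rfl
  · exact Or.inr rfl
  · rcases third695 h hz hw h3 hab hi (by rw [hz.pal]; simp) with k | k
    exacts [absurd k.symm ac, absurd k.symm bc]
  · rcases third695 h hz hw h3 hab hi (by rw [hz.pal]; simp) with k | k
    exacts [absurd k.symm ad, absurd k.symm bd]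
  · exact absurd hi he
  · exact absurd hi hf

/-- the label word `C|A A>f e>C C>f f>A A>e f>C` of `S(z)`, seen from the direction `φ` -/
structure Wd (T : ℂ → Set (Fin 6)) (z : ℂ) (a b c d e f : Fin 6)
    (φ x0 x0' x1 x1' x2 x2' : ℝ) : Prop where
  blk : Blk (Ad T z {a, b} {c, d}) φ x0 x0' x1 x1' x2 x2'
  A0 : ∀ t ∈ Ioo x0 φ, T (pt z t) = {c, d}
  A0' : ∀ t ∈ Ioo φ x0', T (pt z t) = {a, b}
  A1 : ∀ t ∈ Ioo x1 x1', T (pt z t) = {c, d}
  A2 : ∀ t ∈ Ioo x2 x2', T (pt z t) = {a, b}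
  p0 : T (pt z x0) = {c, d, f}
  p0' : T (pt z x0') = {a, b, f}
  p1 : T (pt z x1) = {c, d, e}
  p1' : T (pt z x1') = {c, d, f}
  p2 : T (pt z x2) = {a, b, f}
  p2' : T (pt z x2') = {a, b, e}

namespace Wd

variable {φ x0 x0' x1 x1' x2 x2' : ℝ}

/-- the six ends -/
theorem ends (W : Wd T z a b c d e f φ x0 x0' x1 x1' x2 x2') (hz : DPt T z a b c d)
    (he : e ∉ T z) (hf : f ∉ T z) : EE T z (pt z x0) ∧ EE T z (pt z x0') ∧ EE T z (pt z x1) ∧
      EE T z (pt z x2') := by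
  have B := W.blk
  refine ⟨ee_arc hz.swap hf W.p0 (oend_arc hz.swap hf (Or.inr rfl) W.p0 (ε := φ - x0)
    (by linarith [B.b0]) fun r h1 h2 => ?_), ee_arc hz hf W.p0' (oend_arc hz hf (Or.inl rfl) W.p0'
    (ε := x0' - φ) (by linarith [B.c0]) fun r h1 h2 => ?_), ee_arc hz.swap he W.p1
    (oend_arc hz.swap he (Or.inr rfl) W.p1 (ε := x1' - x1) (by linarith [B.b1])
    fun r h1 h2 => ?_), ee_arc hz he W.p2' (oend_arc hz he (Or.inl rfl) W.p2'
    (ε := x2' - x2) (by linarith [B.b2]) fun r h1 h2 => ?_)⟩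
  · rw [show x0 - -1 * r = x0 + r by ring]
    exact W.A0 _ ⟨by linarith, by linarith⟩
  · rw [show x0' - 1 * r = x0' - r by ring]
    exact W.A0' _ ⟨by linarith, by linarith⟩
  · rw [show x1 - -1 * r = x1 + r by ring]
    exact W.A1 _ ⟨by linarith, by linarith⟩
  · rw [show x2' - 1 * r = x2' - r by ring]
    exact W.A2 _ ⟨by linarith, by linarith⟩

theorem cl_ab (h : Irr U T) (hS : Sec4 T) (W : Wd T z a b c d e f φ x0 x0' x1 x1' x2 x2')
    (hz : DPt T z a b c d) (nd : [a, b, c, d, e, f].Nodup)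
    (hJ : ∀ v, dist v z = 1 → (T v).ncard ≤ 3 ∨ T v = T z) (he : e ∉ T z) (hf : f ∉ T z)
    {w : ℂ} (hw : dist w z = 1) (ha : a ∈ T w) (hb : b ∈ T w) :
    w ∈ closure (Ex T z {a, b}) := by
  obtain ⟨k1, k2, k3, k4⟩ := W.ends hz he hf
  exact cl_pair h hS hz nd hJ ⟨_, _, k4, k1, W.p2', W.p0⟩ ⟨_, _, k2, k3, W.p0', W.p1⟩ hw ha hb

theorem cl_cd (h : Irr U T) (hS : Sec4 T) (W : Wd T z a b c d e f φ x0 x0' x1 x1' x2 x2')
    (hz : DPt T z a b c d) (nd : [a, b, c, d, e, f].Nodup)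
    (hJ : ∀ v, dist v z = 1 → (T v).ncard ≤ 3 ∨ T v = T z) (he : e ∉ T z) (hf : f ∉ T z)
    {w : ℂ} (hw : dist w z = 1) (hc : c ∈ T w) (hd : d ∈ T w) :
    w ∈ closure (Ex T z {c, d}) := by
  obtain ⟨⟨ab, ac, ad, ae, af⟩, ⟨bc, bd, be, bf⟩, ⟨cd, ce, cf⟩, ⟨de, df⟩, ef⟩ :=
    S5.H349.nd_ne nd
  obtain ⟨k1, k2, k3, k4⟩ := W.ends hz he hf
  have nd' : [c, d, a, b, e, f].Nodup := by
    simp only [List.nodup_cons, List.mem_cons, List.not_mem_nil, or_false, not_or, List.nodup_nil,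
      and_true, not_false_eq_true]
    exact ⟨⟨cd, ac.symm, bc.symm, ce, cf⟩, ⟨ad.symm, bd.symm, de, df⟩, ⟨ab, ae, af⟩, ⟨be, bf⟩, ef⟩
  exact cl_pair h hS hz.swap nd' hJ ⟨_, _, k3, k2, W.p1, W.p0'⟩ ⟨_, _, k1, k4, W.p0, W.p2'⟩ hw
    hc hd

end Wd

/-- an exact arc has length at most one -/
theorem no_one (h : Irr U T) {P : Set (Fin 6)} (hP : P.ncard = 2) {u : ℝ}
    (h1 : T (pt z u) = P) (h2 : T (pt z (u + 1)) = P) : False := by
  obtain ⟨x, hx, hx'⟩ := h.not_sub' (dist_pt_one z u) (by rw [h2, hP]; norm_num)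
  rw [h1] at hx
  rw [h2] at hx'
  exact hx' hx

/-- **two `J`-partners with the word of two squares do not exist** -/
theorem wd_false (hS : Sec4 T) (J : JPair U T z y a b c d e f) {φ : ℝ} (yz : y = pt z φ)
    {z0 z0' z1 z1' z2 z2' y0 y0' y1 y1' y2 y2' : ℝ}
    (WZ : Wd T z a b c d e f φ z0 z0' z1 z1' z2 z2')
    (WY : Wd T y b d a c f e (φ + 3) y0 y0' y1 y1' y2 y2')
    (h1 : z0' = z0 + 1) (h2 : y1' = z0 + 6) (h3 : y2 = z0' + 6) (h4 : y0' = y0 + 1)
    (h5 : z1' = y0) (h6 : z2 = y0') : False := by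
  have h := J.irr
  obtain ⟨⟨ab, ac, ad, ae, af⟩, ⟨bc, bd, be, bf⟩, ⟨cd, ce, cf⟩, ⟨de, df⟩, ef⟩ :=
    S5.H349.nd_ne J.nd
  have BZ := WZ.blk
  have BY := WY.blk
  have Za := BZ.a0; have Zb := BZ.b0; have Zc := BZ.c0; have Zd := BZ.d0
  have Zf := BZ.b1; have Zg := BZ.c1; have Zh := BZ.a2; have Zi := BZ.b2
  have Ze := BZ.a1; have Zj := BZ.c2
  have Ya := BY.a0; have Yb := BY.b0; have Yc := BY.c0; have Yd := BY.d0
  have Yf := BY.b1; have Yg := BY.c1; have Yh := BY.a2; have Yi := BY.b2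
  have Ye := BY.a1; have Yj := BY.c2
  have hTy : T y = T z := by
    rw [J.hz.pal, J.hy.pal]
    ext i; simp only [mem_insert_iff, mem_singleton_iff]; tauto
  have ez : e ∉ T z ∧ f ∉ T z := by
    rw [J.hz.pal]
    simp only [mem_insert_iff, mem_singleton_iff, not_or]
    exact ⟨⟨ae.symm, be.symm, ce.symm, de.symm⟩, ⟨af.symm, bf.symm, cf.symm, df.symm⟩⟩
  have ndy : [b, d, a, c, f, e].Nodup := by
    simp only [List.nodup_cons, List.mem_cons, List.not_mem_nil, or_false, not_or, List.nodup_nil,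
      and_true, not_false_eq_true]
    exact ⟨⟨bd, ab.symm, bc, bf, be⟩, ⟨ad.symm, cd.symm, df, de⟩, ⟨ac, af, ae⟩, ⟨cf, ce⟩,
      ef.symm⟩
  have ey : e ∉ T y := by rw [hTy]; exact ez.1
  have fy : f ∉ T y := by rw [hTy]; exact ez.2
  -- the pairs of `y`
  have bdY : ∀ w, dist w y = 1 → b ∈ T w → d ∈ T w → w ∈ closure (Ex T y {b, d}) :=
    fun w hw k1 k2 => WY.cl_ab h hS J.hy.swap ndy J.wy fy ey hw k1 k2
  have acY : ∀ w, dist w y = 1 → a ∈ T w → c ∈ T w → w ∈ closure (Ex T y {a, c}) :=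
    fun w hw k1 k2 => WY.cl_cd h hS J.hy.swap ndy J.wy fy ey hw k1 k2
  -- the arc lengths
  have hθ : φ + 1 < z1 := by
    by_contra hcon
    push Not at hcon
    refine no_one h (z := z) (P := {c, d}) (Set.ncard_pair cd) (u := (φ + 1 + (y0 - 1)) / 2)
      (WZ.A1 _ ⟨?_, ?_⟩) (WZ.A1 _ ⟨?_, ?_⟩)
    · linarith
    · linarith
    · linarith
    · linarith
  have hψ : z2' < φ + 5 := by
    by_contra hcon
    push Not at hcon
    refine no_one h (z := z) (P := {a, b}) (Set.ncard_pair ab) (u := (z2 + (φ + 4)) / 2)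
      (WZ.A2 _ ⟨?_, ?_⟩) (WZ.A2 _ ⟨?_, ?_⟩)
    · linarith
    · linarith
    · linarith
    · linarith
  -- directions over `(t, 2)`
  have R1 : ∀ x, z0' < x → x < φ + 2 → x ∈ Ad T y {b, d} {a, c} →
      T (pt y x) = {b, d} ∨ T (pt y x) = {b, d, f} := by
    intro x k1 k2 k3
    have k4 : x + 6 ∈ Ad T y {b, d} {a, c} := (Ad_per _ _ x).2 k3
    rw [BY.mem _ (by linarith) (by linarith)] at k4
    rw [← pt_six y x]
    rcases k4 with ⟨k5, k6⟩ | ⟨k5, k6⟩ | ⟨k5, k6⟩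
    · exfalso; linarith
    · exfalso; linarith
    · rcases k6.lt_or_eq with k7 | k7
      · exact Or.inl (WY.A2 _ ⟨by linarith, k7⟩)
      · right; rw [k7]; exact WY.p2'
  have R2 : ∀ x, φ + 4 < x → x < z0 + 6 → x ∈ Ad T y {b, d} {a, c} →
      T (pt y x) = {a, c} ∨ T (pt y x) = {a, c, f} := by
    intro x k1 k2 k3
    rw [BY.mem _ (by linarith) (by linarith)] at k3
    rcases k3 with ⟨k5, k6⟩ | ⟨k5, k6⟩ | ⟨k5, k6⟩
    · exfalso; linarith
    · rcases k5.lt_or_eq with k7 | k7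
      · exact Or.inl (WY.A1 _ ⟨k7, by linarith⟩)
      · right; rw [← k7]; exact WY.p1
    · exfalso; linarith
  refine SqW.false hS (U := U) (z := z) (y := y) (a := a) (b := b) (c := c) (d := d) (e := e)
    (f := f) (φ := φ) (t := z0' - φ) (s := y0 - φ - 2) (θ := z1 - φ) (ψ := z2' - φ) ?_
  refine ⟨J, yz, by linarith, by linarith, by linarith, by linarith, by linarith, by linarith,
    by linarith, by linarith, ?_, ?_, ?_, ?_, ?_, ?_, ?_, ?_, ?_, ?_, ?_, ?_, ?_, ?_, ?_, ?_⟩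
  · exact fun x k1 k2 => WZ.A0 _ ⟨by linarith, by linarith⟩
  · exact fun x k1 k2 => WZ.A0' _ ⟨by linarith, by linarith⟩
  · exact fun x k1 k2 => WZ.A1 _ ⟨by linarith, by linarith⟩
  · exact fun x k1 k2 => WZ.A2 _ ⟨by linarith, by linarith⟩
  · rw [show φ + (z0' - φ - 1) = z0 by rw [h1]; ring]; exact WZ.p0
  · rw [show φ + (z0' - φ) = z0' by ring]; exact WZ.p0'
  · rw [show φ + (z1 - φ) = z1 by ring]; exact WZ.p1
  · rw [show φ + (2 + (y0 - φ - 2)) = z1' by rw [h5]; ring]; exact WZ.p1'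
  · rw [show φ + (3 + (y0 - φ - 2)) = z2 by rw [h6, h4]; ring]; exact WZ.p2
  · rw [show φ + (z2' - φ) = z2' by ring]; exact WZ.p2'
  · rw [show φ + (z1 - φ) = z1 by ring]
    refine Eventually.frequently ?_
    filter_upwards [Ioo_mem_nhdsLT (show z0' < z1 by linarith)] with x hx
    intro k
    have k1 := subset_closure (ex_pair h J.hz.swap (dist_pt z x) k)
    have k2 : x ∈ Ad T z {a, b} {c, d} := Or.inr k1
    rw [BZ.mem _ (by linarith [hx.1]) (by linarith [hx.2])] at k2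
    rcases k2 with k3 | k3 | k3
    · linarith [k3.2, hx.1]
    · linarith [k3.1, hx.2]
    · linarith [k3.1, hx.2]
  · filter_upwards [Ioo_mem_nhdsLT (show y0 - φ < 3 by linarith)] with x hx
    exact WY.A0 _ ⟨by linarith [hx.1], by linarith [hx.2]⟩
  · rintro x k1 k2 ⟨k3, k4⟩
    rcases R1 (φ + x) (by linarith) (by linarith) (Or.inr (acY _ (dist_pt y _) k3 k4)) with k | k
    · rw [k] at k3
      rcases k3 with k3 | k3
      exacts [ab k3, ad k3]
    · rw [k] at k3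
      rcases k3 with k3 | k3 | k3
      exacts [ab k3, ad k3, af k3]
  · intro x k1 k2 k3
    rcases R1 (φ + x) (by linarith) (by linarith) (Or.inl (bdY _ (dist_pt y _)
      (by rw [k3]; simp) (by rw [k3]; simp))) with k | k
    · rw [k3] at k
      have : e ∈ ({b, d} : Set (Fin 6)) := by rw [← k]; simp
      rcases this with k4 | k4
      exacts [be k4.symm, de k4.symm]
    · rw [k3] at k
      have : e ∈ ({b, d, f} : Set (Fin 6)) := by rw [← k]; simp
      rcases this with k4 | k4 | k4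
      exacts [be k4.symm, de k4.symm, ef k4]
  · rintro x k1 k2 ⟨k3, k4⟩
    rcases R2 (φ + x) (by linarith) (by linarith) (Or.inl (bdY _ (dist_pt y _) k3 k4)) with k | k
    · rw [k] at k3
      rcases k3 with k3 | k3
      exacts [ab k3.symm, bc k3]
    · rw [k] at k3
      rcases k3 with k3 | k3 | k3
      exacts [ab k3.symm, bc k3, bf k3]
  · intro x k1 k2 k3
    rcases R2 (φ + x) (by linarith) (by linarith) (Or.inr (acY _ (dist_pt y _)
      (by rw [k3]; simp) (by rw [k3]; simp))) with k | k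
    · rw [k3] at k
      have : e ∈ ({a, c} : Set (Fin 6)) := by rw [← k]; simp
      rcases this with k4 | k4
      exacts [ae k4.symm, ce k4.symm]
    · rw [k3] at k
      have : e ∈ ({a, c, f} : Set (Fin 6)) := by rw [← k]; simp
      rcases this with k4 | k4 | k4
      exacts [ae k4.symm, ce k4.symm, ef k4]

end Vale.Agent.P032.H695
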