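import Vale.Agent.P032.H471.Jnet

/-!
# P032: the word with two squares is dead

A comp centre `z` with exactly one `J`-partner `y`, pairs `ab | cd` at `z`, `ac | bd` at `y`; angles
are measured at `z` from `y`.  `SqHalf` : one side of the picture.  `SqHalf.lt` : `s < t`.  Applied to
the picture and to its mirror image this gives `s < t` and `t < s` (`twoSq_dead`).
-/

open Set Filter Topology Metric

noncomputable section

namespace Vale.Agent.P032.H695

open Vale.Agent.P032.Six Vale.Agent.P032.S5.H450 Vale.Agent.P032.H471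

variable {U : Fin 6 → Set ℂ} {T : ℂ → Set (Fin 6)}

/-- the point of the circle about `z` at the angle `x` from `y` -/
def pn (z y : ℂ) (x : ℝ) : ℂ := z + (y - z) * cis x

theorem cis_re (x : ℝ) : (cis x).re = Real.cos x := by
  unfold cis; rw [Complex.exp_ofReal_mul_I_re]

theorem cis_im (x : ℝ) : (cis x).im = Real.sin x := by
  unfold cis; rw [Complex.exp_ofReal_mul_I_im]

/-! ## the curve -/

/-- the squared distance between `y + (y - z) cis (σ x)` and `u` -/
def gq (t θ x : ℝ) : ℝ :=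
  (1 + Real.cos x - Real.cos t - Real.cos θ) ^ 2 + (Real.sin x - Real.sin t - Real.sin θ) ^ 2

theorem gq_left {t θ : ℝ} (h1 : Real.pi / 3 < θ) (h2 : θ < Real.pi) : 1 < gq t θ t := by
  have h3 : Real.cos θ < 1 / 2 := by
    rw [← Real.cos_pi_div_three]
    exact Real.cos_lt_cos_of_nonneg_of_le_pi (by positivity) h2.le h1
  have h4 := Real.sin_sq_add_cos_sq θ
  unfold gq
  nlinarith

theorem gq_right {t θ : ℝ} (t0 : 0 < t) (t1 : t < Real.pi / 3) (h1 : Real.pi / 3 < θ)
    (h2 : θ < Real.pi) : gq t θ (2 * Real.pi / 3) < 1 := by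
  have hpi := Real.pi_pos
  set p := (Real.pi / 3 - t) / 2 with hp
  set r := (θ - Real.pi / 3) / 2 with hr
  have e1 : Real.cos (2 * Real.pi / 3) = -(1 / 2) := by
    rw [show 2 * Real.pi / 3 = Real.pi - Real.pi / 3 by ring, Real.cos_pi_sub,
      Real.cos_pi_div_three]
  have e2 : Real.sin (2 * Real.pi / 3) = Real.sin (Real.pi / 3) := by
    rw [show 2 * Real.pi / 3 = Real.pi - Real.pi / 3 by ring, Real.sin_pi_sub]
  have p0 : 0 < Real.sin p := Real.sin_pos_of_pos_of_lt_pi (by rw [hp]; linarith)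
    (by rw [hp]; linarith)
  have r0 : 0 < Real.sin r := Real.sin_pos_of_pos_of_lt_pi (by rw [hr]; linarith)
    (by rw [hr]; linarith)
  have c0 : 0 < Real.cos (p + r) := Real.cos_pos_of_mem_Ioo ⟨by rw [hp, hr]; linarith,
    by rw [hp, hr]; linarith⟩
  have k1 : Real.cos (Real.pi / 3 - t) =
      1 / 2 * Real.cos t + Real.sin (Real.pi / 3) * Real.sin t := by
    rw [Real.cos_sub, Real.cos_pi_div_three]
  have k2 : Real.cos (θ - Real.pi / 3) =
      1 / 2 * Real.cos θ + Real.sin (Real.pi / 3) * Real.sin θ := by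
    rw [Real.cos_sub, Real.cos_pi_div_three]; ring
  have k3 : Real.cos (θ - t) = Real.cos θ * Real.cos t + Real.sin θ * Real.sin t :=
    Real.cos_sub _ _
  have q1 := Real.sin_sq_add_cos_sq (Real.pi / 3)
  rw [Real.cos_pi_div_three] at q1
  have q2 := Real.sin_sq_add_cos_sq t
  have q3 := Real.sin_sq_add_cos_sq θ
  have e : gq t θ (2 * Real.pi / 3) = 3 - 2 * Real.cos (Real.pi / 3 - t)
      - 2 * Real.cos (θ - Real.pi / 3) + 2 * Real.cos (θ - t) := by
    unfold gq
    rw [e1, e2, k1, k2, k3]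
    linear_combination q1 + q2 + q3
  have l1 : Real.pi / 3 - t = 2 * p := by rw [hp]; ring
  have l2 : θ - Real.pi / 3 = 2 * r := by rw [hr]; ring
  have l3 : θ - t = 2 * p + 2 * r := by rw [hp, hr]; ring
  have q4 := Real.sin_sq_add_cos_sq p
  have q5 := Real.sin_sq_add_cos_sq r
  have e' : gq t θ (2 * Real.pi / 3) = 1 - 8 * (Real.sin p * Real.sin r * Real.cos (p + r)) := by
    rw [e, l1, l2, l3, Real.cos_add (2 * p), Real.cos_add p, Real.cos_two_mul, Real.cos_two_mul,
      Real.sin_two_mul, Real.sin_two_mul]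
    linear_combination (-8 * Real.sin r ^ 2) * q4 + (8 * Real.cos p ^ 2 - 8) * q5
  rw [e']
  have : 0 < Real.sin p * Real.sin r * Real.cos (p + r) := by positivity
  linarith

theorem gq_cont (t θ : ℝ) : Continuous (gq t θ) := by unfold gq; fun_prop

theorem exists_gq {t θ : ℝ} (t0 : 0 < t) (t1 : t < Real.pi / 3) (h1 : Real.pi / 3 < θ)
    (h2 : θ < Real.pi) : ∃ x, t < x ∧ x < 2 * Real.pi / 3 ∧ gq t θ x = 1 := by
  have hpi := Real.pi_pos
  have h3 := intermediate_value_Ioo' (show t ≤ 2 * Real.pi / 3 by linarith)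
    (gq_cont t θ).continuousOn
  obtain ⟨x, hx, hx'⟩ := h3 ⟨gq_right t0 t1 h1 h2, gq_left h1 h2⟩
  exact ⟨x, hx.1, hx.2, hx'⟩

theorem sg_cos {σ : ℝ} (hσ : σ = 1 ∨ σ = -1) (x : ℝ) : Real.cos (σ * x) = Real.cos x := by
  rcases hσ with rfl | rfl
  · rw [one_mul]
  · rw [neg_one_mul, Real.cos_neg]

theorem sg_sin {σ : ℝ} (hσ : σ = 1 ∨ σ = -1) (x : ℝ) : Real.sin (σ * x) = σ * Real.sin x := by
  rcases hσ with rfl | rfl
  · rw [one_mul, one_mul]
  · rw [neg_one_mul, Real.sin_neg, neg_one_mul]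

theorem sg_sq {σ : ℝ} (hσ : σ = 1 ∨ σ = -1) : σ * σ = 1 := by
  rcases hσ with rfl | rfl <;> norm_num

theorem normSq_of {z y : ℂ} (hy : dist y z = 1) : Complex.normSq (y - z) = 1 := by
  rw [dist_eq_norm] at hy
  rw [← Complex.sq_norm, hy]; norm_num

theorem dist_gq {z y : ℂ} {σ t θ x : ℝ} (hσ : σ = 1 ∨ σ = -1) (hy : dist y z = 1) :
    dist (y + (y - z) * cis (σ * x)) (pn z y (σ * t) + pn z y (σ * θ) - z) ^ 2 = gq t θ x := by
  have e : y + (y - z) * cis (σ * x) - (pn z y (σ * t) + pn z y (σ * θ) - z) =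
      (y - z) * (1 + cis (σ * x) - cis (σ * t) - cis (σ * θ)) := by
    unfold pn; ring
  rw [dist_eq_norm, e, Complex.sq_norm, map_mul, normSq_of hy, one_mul, Complex.normSq_apply]
  simp only [Complex.add_re, Complex.sub_re, Complex.add_im, Complex.sub_im, cis_re, cis_im,
    Complex.one_re, Complex.one_im, sg_cos hσ, sg_sin hσ]
  unfold gq
  linear_combination (Real.sin x - Real.sin t - Real.sin θ) ^ 2 * sg_sq hσ

/-- the cross product of two points of the circle -/
theorem cr_pn {z y : ℂ} {σ : ℝ} (hσ : σ = 1 ∨ σ = -1) (hy : dist y z = 1) (x x' : ℝ) :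
    cr (pn z y (σ * x) - z) (pn z y (σ * x') - z) = σ * Real.sin (x' - x) := by
  have h1 := normSq_of hy
  rw [Complex.normSq_apply] at h1
  unfold cr pn
  simp only [Complex.add_re, Complex.sub_re, Complex.add_im, Complex.sub_im, Complex.mul_re,
    Complex.mul_im, cis_re, cis_im, sg_cos hσ, sg_sin hσ, Real.sin_sub, Complex.sub_re,
    Complex.sub_im] at h1 ⊢
  linear_combination (σ * (Real.sin x' * Real.cos x - Real.cos x' * Real.sin x)) * h1

theorem dist_pn {z y : ℂ} (hy : dist y z = 1) (x : ℝ) : dist (pn z y x) z = 1 := by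
  rw [dist_eq_norm, pn, add_sub_cancel_left, norm_mul, ← dist_eq_norm, hy, one_mul, norm_cis]

/-! ## colours -/

theorem nd_all {a b c d e f : Fin 6} (hnd : [a, b, c, d, e, f].Nodup) (i : Fin 6) :
    i = a ∨ i = b ∨ i = c ∨ i = d ∨ i = e ∨ i = f := by
  have h1 : (Finset.univ : Finset (Fin 6)) = [a, b, c, d, e, f].toFinset :=
    (Finset.eq_univ_of_card _ (by rw [List.toFinset_card_of_nodup hnd]; rfl)).symm
  have h2 := Finset.mem_univ i
  rw [h1] at h2
  simpa using h2

/-- two of three colours -/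
theorem two_of_three {S : Set (Fin 6)} {x y w : Fin 6} (xy : x ≠ y) (xw : x ≠ w) (yw : y ≠ w)
    (h : (S ∩ {x, y, w}).ncard = 2) (hw : w ∈ S) : (x ∈ S ∧ y ∉ S) ∨ (x ∉ S ∧ y ∈ S) := by
  by_cases hx : x ∈ S <;> by_cases hy : y ∈ S
  · exfalso
    have : S ∩ {x, y, w} = {x, y, w} := by
      apply inter_eq_right.2
      rintro i (rfl | rfl | rfl) <;> assumption
    rw [this, Set.ncard_insert_of_notMem (by simp [xy, xw]), Set.ncard_pair yw] at h
    omega
  · exact Or.inl ⟨hx, hy⟩
  · exact Or.inr ⟨hx, hy⟩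
  · exfalso
    have : S ∩ {x, y, w} = {w} := by
      ext i
      constructor
      · rintro ⟨h1, rfl | rfl | h2⟩
        exacts [absurd h1 hx, absurd h1 hy, h2]
      · rintro rfl
        exact ⟨hw, by simp⟩
    rw [this, Set.ncard_singleton] at h
    omega

/-- one side of the picture -/
structure SqHalf (U : Fin 6 → Set ℂ) (T : ℂ → Set (Fin 6)) (z y : ℂ) (a b c d e f : Fin 6)
    (σ t s θ : ℝ) : Prop where
  nd : [a, b, c, d, e, f].Nodup
  hz : DPt T z a b c d
  hy : DPt T y a c b d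
  dy : dist y z = 1
  W : ∀ m, dist m y = 1 → (T m).ncard ≤ 3 ∨ T m = T y
  sg : σ = 1 ∨ σ = -1
  t0 : 0 < t
  t1 : t < Real.pi / 3
  s0 : 0 < s
  s1 : s < Real.pi / 3
  θ0 : Real.pi / 3 < θ
  θ1 : θ < Real.pi
  v0 : EE T z (pn z y (σ * t))
  Tv0 : T (pn z y (σ * t)) = {a, b, f}
  q0 : EE T z (pn z y (σ * θ))
  Tq0 : T (pn z y (σ * θ)) = {c, d, e}
  v1 : EE T z (pn z y (σ * (Real.pi + s)))
  Tv1 : T (pn z y (σ * (Real.pi + s))) = {a, b, f}
  oq : ore T z (pn z y (σ * θ)) = -σ
  iq : inn U T z (pn z y (σ * θ)) = c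
  H1 : ∀ x, t < x → x < 2 * Real.pi / 3 →
    ¬ (a ∈ T (y + (y - z) * cis (σ * x)) ∧ c ∈ T (y + (y - z) * cis (σ * x)))
  H3 : ∀ x, t < x → x < 2 * Real.pi / 3 → T (y + (y - z) * cis (σ * x)) ≠ {b, d, e}

namespace SqHalf

variable {z y : ℂ} {a b c d e f : Fin 6} {σ t s θ : ℝ}

theorem compl (H : SqHalf U T z y a b c d e f σ t s θ) : ({c, d, e} : Set (Fin 6)) = {a, b, f}ᶜ := by
  obtain ⟨⟨ab, ac, ad, ae, af⟩, ⟨bc, bd, be, bf⟩, ⟨cd, ce, cf⟩, ⟨de, df⟩, ef⟩ :=
    S5.H349.nd_ne H.nd
  have nd' : [a, b, f, c, d, e].Nodup := by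
    simp only [List.nodup_cons, List.mem_cons, List.not_mem_nil, or_false, not_or, List.nodup_nil,
      and_true, not_false_eq_true]
    exact ⟨⟨ab, af, ac, ad, ae⟩, ⟨bf, bc, bd, be⟩, ⟨cf.symm, df.symm, ef.symm⟩, ⟨cd, ce⟩, de⟩
  exact (compl_of_nodup nd').symm

theorem eTz (H : SqHalf U T z y a b c d e f σ t s θ) : e ∉ T z ∧ f ∉ T z := by
  obtain ⟨⟨ab, ac, ad, ae, af⟩, ⟨bc, bd, be, bf⟩, ⟨cd, ce, cf⟩, ⟨de, df⟩, ef⟩ :=
    S5.H349.nd_ne H.nd
  rw [H.hz.pal]
  simp only [mem_insert_iff, mem_singleton_iff, not_or]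
  exact ⟨⟨ae.symm, be.symm, ce.symm, de.symm⟩, ⟨af.symm, bf.symm, cf.symm, df.symm⟩⟩

/-- the second centre over `v0`, `q0` -/
theorem c_mem (h : Irr U T) (hS : Sec4 T) (H : SqHalf U T z y a b c d e f σ t s θ) :
    c ∈ T (pn z y (σ * t) + pn z y (σ * θ) - z) := by
  obtain ⟨⟨ab, ac, ad, ae, af⟩, ⟨bc, bd, be, bf⟩, ⟨cd, ce, cf⟩, ⟨de, df⟩, ef⟩ :=
    S5.H349.nd_ne H.nd
  have hc : T (pn z y (σ * θ)) = (T (pn z y (σ * t)))ᶜ := by rw [H.Tv0, H.Tq0, H.compl]
  have E1 := rh471 h hS H.v0 H.q0 hc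
  have E2 := rh471' h hS H.v0 H.q0 hc
  have cov := cov471 h hS H.v0 H.q0 hc
  set u := pn z y (σ * t) + pn z y (σ * θ) - z with hu
  have eu : e ∈ T u := (cov e).resolve_left H.eTz.1
  have fu : f ∈ T u := (cov f).resolve_left H.eTz.2
  by_contra hcon
  have i1 := E1.card_i
  have i2 := E2.card_i
  rw [H.Tv0] at i1
  rw [H.Tq0] at i2
  have du : d ∈ T u := by
    rcases two_of_three cd ce de i2 eu with k | k
    · exact absurd k.1 hcon
    · exact k.2
  have yT : T y = {a, c, b, d} := H.hy.pal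
  have ey : e ∉ T y := by
    rw [yT]; simp only [mem_insert_iff, mem_singleton_iff, not_or]
    exact ⟨ae.symm, ce.symm, be.symm, de.symm⟩
  have hne : u ≠ y := fun h0 => ey (h0 ▸ eu)
  -- the common point
  obtain ⟨x, x0, x1, hx⟩ := exists_gq H.t0 H.t1 H.θ0 H.θ1
  have d1 : dist (y + (y - z) * cis (σ * x)) y = 1 := by
    rw [dist_eq_norm, add_sub_cancel_left, norm_mul, ← dist_eq_norm, H.dy, one_mul, norm_cis]
  have d2 : dist (y + (y - z) * cis (σ * x)) u = 1 := by
    have k := dist_gq (z := z) (y := y) (t := t) (θ := θ) (x := x) H.sg H.dy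
    rw [hx] at k
    have k2 := dist_nonneg (x := y + (y - z) * cis (σ * x)) (y := u)
    nlinarith
  have dyu : dist u y < 2 := by
    have k := dist_gq (z := z) (y := y) (t := t) (θ := θ) (x := 2 * Real.pi / 3) H.sg H.dy
    have k1 := gq_right H.t0 H.t1 H.θ0 H.θ1
    rw [← k] at k1
    have k2 := dist_nonneg (x := y + (y - z) * cis (σ * (2 * Real.pi / 3))) (y := u)
    have k3 : dist (y + (y - z) * cis (σ * (2 * Real.pi / 3))) u < 1 := by nlinarith
    have k4 : dist (y + (y - z) * cis (σ * (2 * Real.pi / 3))) y = 1 := by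
      rw [dist_eq_norm, add_sub_cancel_left, norm_mul, ← dist_eq_norm, H.dy, one_mul, norm_cis]
    have k5 := dist_triangle_left u y (y + (y - z) * cis (σ * (2 * Real.pi / 3)))
    linarith
  set m := y + (y - z) * cis (σ * x) with hm
  have hmid : u + y ≠ 2 * m := by
    intro h0
    have : dist u y = 2 := by
      rw [dist_eq_norm, show u - y = 2 * (m - y) by linear_combination h0, norm_mul,
        ← dist_eq_norm, d1]
      norm_num
    linarith
  have H1 := H.H1 x x0 x1
  have H3 := H.H3 x x0 x1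
  rw [← hm] at H1 H3
  have m3 : (T m).ncard ≤ 3 := by
    rcases H.W m d1 with k | k
    · exact k
    · exfalso
      apply H1
      rw [k, yT]
      simp
  have uc := E1.card_z
  have all := fun i => nd_all H.nd i
  rcases two_of_three ab af bf i1 fu with ⟨k1, k2⟩ | ⟨k1, k2⟩
  · -- `T u = {a, d, e, f}`
    have hX : Prs T y {a, c} := ⟨a, c, b, d, H.hy, rfl⟩
    have hY := prs_ee h E1
    have eY : T (pn z y (σ * t)) ∩ T u = {a, f} := by
      rw [H.Tv0]
      ext i
      simp only [mem_inter_iff, mem_insert_iff, mem_singleton_iff]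
      constructor
      · rintro ⟨rfl | rfl | rfl, k4⟩
        exacts [Or.inl rfl, absurd k4 k2, Or.inr rfl]
      · rintro (rfl | rfl)
        exacts [⟨Or.inl rfl, k1⟩, ⟨Or.inr (Or.inr rfl), fu⟩]
    rw [eY] at hY
    have hcov : ∀ i, i ∈ T y ∨ i ∈ T u := by
      intro i
      rw [yT]
      rcases all i with rfl | rfl | rfl | rfl | rfl | rfl
      · left; simp
      · left; simp
      · left; simp
      · left; simp
      · exact Or.inr eu
      · exact Or.inr fu
    have n1 : (({a, c} : Set (Fin 6)) ∩ {a, f}).ncard = 1 := by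
      have : ({a, c} : Set (Fin 6)) ∩ {a, f} = {a} := by
        ext i
        simp only [mem_inter_iff, mem_insert_iff, mem_singleton_iff]
        constructor
        · rintro ⟨rfl | rfl, k4 | k4⟩
          exacts [rfl, rfl, k4, absurd k4 cf]
        · rintro rfl
          exact ⟨Or.inl rfl, Or.inl rfl⟩
      rw [this, Set.ncard_singleton]
    have n2 : ((T y \ {a, c}) ∩ (T u \ {a, f})).ncard = 1 := by
      have : (T y \ {a, c}) ∩ (T u \ {a, f}) = {d} := by
        rw [yT]
        ext i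
        simp only [mem_inter_iff, Set.mem_sdiff, mem_insert_iff, mem_singleton_iff, not_or]
        constructor
        · rintro ⟨⟨k4 | k4 | k4 | k4, k5, k6⟩, k7, -⟩
          · exact absurd k4 k5
          · exact absurd k4 k6
          · exact absurd (k4 ▸ k7) k2
          · exact k4
        · rintro rfl
          exact ⟨⟨by simp, ad.symm, cd.symm⟩, du, ad.symm, df⟩
      rw [this, Set.ncard_singleton]
    obtain ⟨k3, -, -⟩ := ua471 h hX hY hcov n1 n2 hne.symm (by rw [add_comm]; exact hmid) d1 d2 m3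
    rcases k3 with k3 | k3
    · apply H1
      rw [k3]
      simp
    · apply H3
      rw [k3]
      ext i
      simp only [mem_compl_iff, mem_union, mem_insert_iff, mem_singleton_iff, not_or]
      constructor
      · rintro ⟨⟨q1, q2⟩, -, q4⟩
        rcases all i with k | k | k | k | k | k
        · exact absurd k q1
        · exact Or.inl k
        · exact absurd k q2
        · exact Or.inr (Or.inl k)
        · exact Or.inr (Or.inr k)
        · exact absurd k q4
      · rintro (rfl | rfl | rfl)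
        · exact ⟨⟨ab.symm, bc⟩, ab.symm, bf⟩
        · exact ⟨⟨ad.symm, cd.symm⟩, ad.symm, df⟩
        · exact ⟨⟨ae.symm, ce.symm⟩, ae.symm, ef⟩
  · -- `T u = {b, d, e, f}`
    have hTu : T u = {b, d, f, e} := by
      ext i
      simp only [mem_insert_iff, mem_singleton_iff]
      constructor
      · intro k
        rcases all i with rfl | rfl | rfl | rfl | rfl | rfl
        · exact absurd k k1
        · exact Or.inl rfl
        · exact absurd k hcon
        · exact Or.inr (Or.inl rfl)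
        · exact Or.inr (Or.inr (Or.inr rfl))
        · exact Or.inr (Or.inr (Or.inl rfl))
      · rintro (rfl | rfl | rfl | rfl)
        exacts [k2, du, fu, eu]
    have eY : T (pn z y (σ * t)) ∩ T u = {b, f} := by
      rw [H.Tv0]
      ext i
      simp only [mem_inter_iff, mem_insert_iff, mem_singleton_iff]
      constructor
      · rintro ⟨rfl | rfl | rfl, k4⟩
        exacts [absurd k4 k1, Or.inl rfl, Or.inr rfl]
      · rintro (rfl | rfl)
        exacts [⟨Or.inr (Or.inl rfl), k2⟩, ⟨Or.inr (Or.inr rfl), fu⟩]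
    have tw := (prs_ee h E1).twoPairs h
    rw [eY, hTu, show ({b, d, f, e} : Set (Fin 6)) \ {b, f} = {d, e} by
      ext i
      simp only [Set.mem_sdiff, mem_insert_iff, mem_singleton_iff, not_or]
      constructor
      · rintro ⟨k | k | k | k, q1, q2⟩
        exacts [absurd k q1, Or.inl k, absurd k q2, Or.inr k]
      · rintro (rfl | rfl)
        exacts [⟨by simp, bd.symm, df⟩, ⟨by simp, be.symm, ef⟩]] at tw
    have nd' : [b, d, a, c, f, e].Nodup := by
      simp only [List.nodup_cons, List.mem_cons, List.not_mem_nil, or_false, not_or,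
        List.nodup_nil, and_true, not_false_eq_true]
      exact ⟨⟨bd, ab.symm, bc, bf, be⟩, ⟨ad.symm, cd.symm, df, de⟩, ⟨ac, af, ae⟩, ⟨cf, ce⟩,
        ef.symm⟩
    obtain ⟨j, j', hj, -, τ, -, -, l1, l2⟩ := h.ub471 H.hy.swap d1 d2 hne hmid nd' hTu m3
      (h.twoPairs H.hy.swap) tw
    have m1 : j' ∈ T m := by
      obtain ⟨r, k3, k4⟩ := (l1.and ((tendsto_hbr u m τ).eventually (h.nhd m))).exists
      exact k4 k3.1
    have m2 : j ∈ T m := by
      obtain ⟨r, k3, k4⟩ := (l2.and ((tendsto_hbr u m (-τ)).eventually (h.nhd m))).exists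
      exact k4 k3.1
    apply H1
    rcases hj with ⟨rfl, rfl⟩ | ⟨rfl, rfl⟩
    exacts [⟨m2, m1⟩, ⟨m1, m2⟩]

/-- **one side of the picture: `s < t`** -/
theorem lt (h : Irr U T) (hS : Sec4 T) (H : SqHalf U T z y a b c d e f σ t s θ) : s < t := by
  have hpi := Real.pi_pos
  have hc : T (pn z y (σ * θ)) = (T (pn z y (σ * t)))ᶜ := by rw [H.Tv0, H.Tq0, H.compl]
  have hc' : T (pn z y (σ * t)) = (T (pn z y (σ * θ)))ᶜ := by rw [hc, compl_compl]
  have hd : T (pn z y (σ * θ)) = (T (pn z y (σ * (Real.pi + s))))ᶜ := by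
    rw [H.Tv1, H.Tq0, H.compl]
  have hd' : T (pn z y (σ * (Real.pi + s))) = (T (pn z y (σ * θ)))ᶜ := by rw [hd, compl_compl]
  have E2 := rh471 h hS H.q0 H.v0 hc'
  have E1 := rh471' h hS H.q0 H.v0 hc'
  have F2 := rh471 h hS H.q0 H.v1 hd'
  have F1 := rh471' h hS H.q0 H.v1 hd'
  have cm := H.c_mem h hS
  rw [add_comm (pn z y (σ * t))] at cm
  have covF := cov471 h hS H.q0 H.v1 hd'
  set u := pn z y (σ * θ) + pn z y (σ * t) - z with hu
  set w := pn z y (σ * θ) + pn z y (σ * (Real.pi + s)) - z with hw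
  have s1 : 0 < Real.sin (θ - t) :=
    Real.sin_pos_of_pos_of_lt_pi (by linarith [H.t1, H.θ0]) (by linarith [H.t0, H.θ1])
  have s2 : 0 < Real.sin (θ - s) :=
    Real.sin_pos_of_pos_of_lt_pi (by linarith [H.s1, H.θ0]) (by linarith [H.s0, H.θ1])
  have ss := sg_sq H.sg
  -- the orientation of `u`
  have L1 := lp1_471 h hS E2 E1 hc'
  rw [show pn z y (σ * θ) + pn z y (σ * t) - u = z by rw [hu]; ring, H.iq] at L1
  have L1' := L1.2 cm
  rw [show u - pn z y (σ * θ) = pn z y (σ * t) - z by rw [hu]; ring,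
    show pn z y (σ * t) - u = -(pn z y (σ * θ) - z) by rw [hu]; ring] at L1'
  have k0 : cr (pn z y (σ * t) - z) (-(pn z y (σ * θ) - z)) = -(σ * Real.sin (θ - t)) := by
    rw [← cr_pn H.sg H.dy]
    unfold cr
    simp only [Complex.neg_re, Complex.neg_im]
    ring
  rw [k0] at L1'
  have ou : ore T u (pn z y (σ * θ)) = -σ := by
    rcases ore_or T u (pn z y (σ * θ)) with k | k <;> rcases H.sg with k' | k' <;>
      rw [k, k'] at L1' <;> rw [k, k'] <;> nlinarith
  -- different centres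
  have wz : w ≠ z := fun h0 => H.q0.anti h H.v1 hd' (by rw [hw] at h0; linear_combination h0)
  have wu : w ≠ u := by
    intro h0
    have k1 : pn z y (σ * (Real.pi + s)) = pn z y (σ * t) := by
      rw [hw, hu] at h0; linear_combination h0
    have yz : y - z ≠ 0 := by
      intro h1
      have := H.dy
      rw [dist_eq_norm, h1, norm_zero] at this
      exact zero_ne_one this
    have k2 : cis (σ * (Real.pi + s)) = cis (σ * t) := by
      unfold pn at k1
      apply mul_left_cancel₀ yz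
      linear_combination k1
    have k3 := congrArg Complex.re k2
    rw [cis_re, cis_re, sg_cos H.sg, sg_cos H.sg, add_comm, Real.cos_add_pi] at k3
    have c1 : 0 < Real.cos s := Real.cos_pos_of_mem_Ioo ⟨by linarith [H.s0], by linarith [H.s1]⟩
    have c2 : 0 < Real.cos t := Real.cos_pos_of_mem_Ioo ⟨by linarith [H.t0], by linarith [H.t1]⟩
    linarith
  -- the third edge
  obtain ⟨p, r, p0, r0, L3⟩ := lp3_471 h hS H.q0 H.v0 hc' F2 F1 hd' wz (by rw [← hu]; exact wu)
  rw [← hu, H.oq, ou, show w - pn z y (σ * θ) = (y - z) * cis (σ * (Real.pi + s)) by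
      rw [hw]; unfold pn; ring,
    show z - pn z y (σ * θ) = -((y - z) * cis (σ * θ)) by unfold pn; ring,
    show pn z y (σ * t) - z = (y - z) * cis (σ * t) by unfold pn; ring] at L3
  have yz : y - z ≠ 0 := by
    intro h1
    have := H.dy
    rw [dist_eq_norm, h1, norm_zero] at this
    exact zero_ne_one this
  set o1 := ore T w (pn z y (σ * θ)) with ho1
  have L4 : (o1 : ℂ) * cis (σ * (Real.pi + s)) + ((p * σ : ℝ) : ℂ) * cis (σ * θ)
      - ((r * σ : ℝ) : ℂ) * cis (σ * t) = 0 := by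
    apply mul_left_cancel₀ yz
    push_cast at L3 ⊢
    linear_combination L3
  have r1 := congrArg Complex.re L4
  have r2 := congrArg Complex.im L4
  simp only [Complex.add_re, Complex.sub_re, Complex.add_im, Complex.sub_im,
    Complex.re_ofReal_mul, Complex.im_ofReal_mul, cis_re, cis_im, Complex.zero_re,
    Complex.zero_im, sg_cos H.sg, sg_sin H.sg] at r1 r2
  rw [add_comm Real.pi s, Real.cos_add_pi] at r1
  rw [add_comm Real.pi s, Real.sin_add_pi] at r2
  -- cross products
  have x1 : -(o1 * σ) * Real.sin (θ - s) - r * Real.sin (θ - t) = 0 := by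
    rw [Real.sin_sub, Real.sin_sub]
    linear_combination σ * Real.sin θ * r1 - Real.cos θ * r2 +
      ((r * Real.cos t - p * Real.cos θ) * Real.sin θ +
        (p * Real.sin θ - r * Real.sin t) * Real.cos θ) * ss
  have x2 : -(o1 * σ) * Real.sin (t - s) - p * Real.sin (θ - t) = 0 := by
    rw [Real.sin_sub, Real.sin_sub]
    linear_combination σ * Real.sin t * r1 - Real.cos t * r2 +
      ((r * Real.cos t - p * Real.cos θ) * Real.sin t +
        (p * Real.sin θ - r * Real.sin t) * Real.cos t) * ss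
  have o1s : o1 * σ = -1 := by
    have k1 : o1 = 1 ∨ o1 = -1 := ore_or T w _
    have k2 : 0 ≤ r * Real.sin (θ - t) := mul_nonneg r0 s1.le
    rcases k1 with k | k <;> rcases H.sg with k' | k' <;> rw [k, k'] at x1 ⊢ <;> nlinarith
  rw [o1s] at x2
  have k3 : 0 ≤ Real.sin (t - s) := by
    have : 0 ≤ p * Real.sin (θ - t) := mul_nonneg p0 s1.le
    linarith
  have k4 : s ≤ t := by
    by_contra hcon
    push Not at hcon
    have : Real.sin (t - s) < 0 := Real.sin_neg_of_neg_of_neg_pi_lt (by linarith)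
      (by linarith [H.s1, H.t0])
    linarith
  refine lt_of_le_of_ne k4 fun hst => ?_
  -- the tangent case
  have cisπ : cis (σ * (Real.pi + s)) = -cis (σ * s) := by
    apply Complex.ext
    · rw [cis_re, Complex.neg_re, cis_re, sg_cos H.sg, sg_cos H.sg, add_comm, Real.cos_add_pi]
    · rw [cis_im, Complex.neg_im, cis_im, sg_sin H.sg, sg_sin H.sg, add_comm, Real.sin_add_pi]
      ring
  have hop : w + u = 2 * pn z y (σ * θ) := by
    have k5 : pn z y (σ * (Real.pi + s)) + pn z y (σ * t) = 2 * z := by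
      unfold pn
      rw [cisπ, hst]; ring
    rw [hw, hu]
    linear_combination k5
  have k6 := tan471 h F2 E2 hop
  have L5 := lp1_471 h hS H.q0 H.v0 hc'
  rw [← hu, H.oq, show z - pn z y (σ * θ) = -(pn z y (σ * θ) - z) by ring] at L5
  have k7 : cr (-(pn z y (σ * θ) - z)) (pn z y (σ * t) - z) = σ * Real.sin (θ - t) := by
    rw [← cr_pn H.sg H.dy]
    unfold cr
    simp only [Complex.neg_re, Complex.neg_im]
    ring
  rw [k7] at L5
  have k8 : inn U T u (pn z y (σ * θ)) ∉ T z := by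
    rw [← L5]
    push Not
    have e1 : -σ * (σ * Real.sin (θ - t)) = -Real.sin (θ - t) := by
      linear_combination (-Real.sin (θ - t)) * ss
    rw [e1]
    linarith
  have k9 := (E2.inn_mem h).1
  rw [H.Tq0] at k9
  apply k6
  rcases k9 with k | k | k
  · exact absurd (by rw [k, H.hz.pal]; simp) k8
  · exact absurd (by rw [k, H.hz.pal]; simp) k8
  · rw [mem_singleton_iff] at k
    rw [k]
    exact (covF e).resolve_left H.eTz.1

end SqHalf

/-- **the word with two squares is dead** -/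
theorem twoSq_dead {z y : ℂ} {a b c d e f : Fin 6} {σ t s θ θ' : ℝ} (h : Irr U T) (hS : Sec4 T)
    (H : SqHalf U T z y a b c d e f σ t s θ)
    (H' : SqHalf U T z y d c b a e f (-σ) (Real.pi / 3 - t) (Real.pi / 3 - s) θ') : False := by
  have h1 := H.lt h hS
  have h2 := H'.lt h hS
  linarith

end Vale.Agent.P032.H695
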