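import Vale.Agent.P032.H594.JSg
import Vale.Agent.P032.H492.TwoJ
import Vale.Agent.P032.H695.TwoSq

/-!
# P032: the word with two squares, from the arcs of the two circles

Angles in units of 60 degrees.  `SqW` : the arcs of `S(z)` and the palettes of their ends for the word
with two squares, and the facts on `S(y)`.  The inner colours are read at the `J`-partner
(`sd_J`, `sd_J'`).
`SqW.false` : there is no such pair.
-/

open Set Filter Topology Metric

noncomputable section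

namespace Vale.Agent.P032.H695

open Vale.Agent.P032.Six Vale.Agent.P032.S5.H450 Vale.Agent.P032.H471
  Vale.Agent.P032.S5.H767 Vale.Agent.P032.H594

variable {U : Fin 6 → Set ℂ} {T : ℂ → Set (Fin 6)}

/-! ## angles -/

theorem pt_sub (z : ℂ) (x : ℝ) : pt z x - z = cis (x * (Real.pi / 3)) := by
  unfold pt; ring

theorem pn_pt {z y : ℂ} {φ : ℝ} (hy : y = pt z φ) (x : ℝ) :
    pn z y (x * (Real.pi / 3)) = pt z (φ + x) := by
  unfold pn pt
  rw [hy, pt_sub, add_mul, S5.H767.cis_add]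

theorem py_pt {z y : ℂ} {φ : ℝ} (hy : y = pt z φ) (x : ℝ) :
    y + (y - z) * cis (x * (Real.pi / 3)) = pt y (φ + x) := by
  have h : y - z = cis (φ * (Real.pi / 3)) := by rw [hy, pt_sub]
  rw [h]
  unfold pt
  rw [add_mul, S5.H767.cis_add]

theorem cr_pt (z : ℂ) (x x' : ℝ) :
    cr (pt z x - z) (pt z x' - z) = Real.sin ((x' - x) * (Real.pi / 3)) := by
  rw [pt_sub, pt_sub]
  unfold cr
  rw [cis_re, cis_re, cis_im, cis_im, sub_mul, Real.sin_sub]
  ring

/-- the centre `z` on the circle about `y` -/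
theorem z_pt {z y : ℂ} {φ : ℝ} (hy : y = pt z φ) : pt y (φ + 3) = z := by
  rw [pt_three, hy]
  unfold pt
  ring

/-! ## the inner colours at a `J`-partner -/

/-- no single colour at a point of the circle about a point with this colour -/
theorem not_sd_out (h : Irr U T) {z x : ℂ} {a b : Fin 6} (hx : dist x z = 1) (hT : T x ⊆ {a, b})
    (hF : ∃ᶠ p in 𝓝 z, a ∈ T p ∧ 1 < dist (x + (p - z)) z) : ¬ Sd U z x b a := by
  intro hs
  have hc : Tendsto (fun p : ℂ => x + (p - z)) (𝓝 z) (𝓝 x) := by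
    have h1 : Continuous fun p : ℂ => x + (p - z) := by fun_prop
    have h2 := h1.tendsto z
    rwa [sub_self, add_zero] at h2
  obtain ⟨p, ⟨k1, k2⟩, k3, k4⟩ := (hF.and_eventually
    ((hc.eventually (h.nhd x)).and (hc.eventually hs))).exists
  refine h.not_single (z := p) (w := x + (p - z)) (i := a) (h.sub _ k1) ?_ ?_
  · rw [dist_eq_norm, show x + (p - z) - p = x - z by ring, ← dist_eq_norm]; exact hx
  · intro i hi
    rcases hT (k3 hi) with rfl | hi'
    · exact rfl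
    · rw [mem_singleton_iff] at hi'
      subst hi'
      exact absurd (h.sub _ hi) (k4.1 k2)

theorem not_sd_in (h : Irr U T) {z x : ℂ} {c d : Fin 6} (hx : dist x z = 1) (hT : T x ⊆ {c, d})
    (hF : ∃ᶠ p in 𝓝 z, c ∈ T p ∧ dist (x + (p - z)) z < 1) : ¬ Sd U z x c d := by
  intro hs
  have hc : Tendsto (fun p : ℂ => x + (p - z)) (𝓝 z) (𝓝 x) := by
    have h1 : Continuous fun p : ℂ => x + (p - z) := by fun_prop
    have h2 := h1.tendsto z
    rwa [sub_self, add_zero] at h2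
  obtain ⟨p, ⟨k1, k2⟩, k3, k4⟩ := (hF.and_eventually
    ((hc.eventually (h.nhd x)).and (hc.eventually hs))).exists
  refine h.not_single (z := p) (w := x + (p - z)) (i := c) (h.sub _ k1) ?_ ?_
  · rw [dist_eq_norm, show x + (p - z) - p = x - z by ring, ← dist_eq_norm]; exact hx
  · intro i hi
    rcases hT (k3 hi) with rfl | hi'
    · exact rfl
    · rw [mem_singleton_iff] at hi'
      subst hi'
      exact absurd (h.sub _ hi) (k4.2 k2)

/-- the distance of the shifted point -/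
theorem shift_sq {z y : ℂ} {φ : ℝ} (hy : y = pt z φ) (η δ : ℝ) :
    dist (pt z (φ + η) + (pt y (φ + (3 - δ)) - z)) z ^ 2 =
      3 + 2 * Real.cos (η * (Real.pi / 3)) - 2 * Real.cos (δ * (Real.pi / 3))
        - 2 * Real.cos ((η + δ) * (Real.pi / 3)) := by
  have e1 : pt z (φ + η) + (pt y (φ + (3 - δ)) - z) - z =
      cis (φ * (Real.pi / 3)) *
        (1 + cis (η * (Real.pi / 3)) - cis (-(δ * (Real.pi / 3)))) := by
    have h1 : pt y (φ + (3 - δ)) = y - cis (φ * (Real.pi / 3)) * cis (-(δ * (Real.pi / 3))) := by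
      unfold pt
      rw [show (φ + (3 - δ)) * (Real.pi / 3) = φ * (Real.pi / 3) + -(δ * (Real.pi / 3)) + Real.pi by
        ring, S5.H767.cis_add, S5.H767.cis_add, S5.H767.cis_pi]
      ring
    rw [h1, hy]
    unfold pt
    rw [add_mul, S5.H767.cis_add]
    ring
  rw [dist_eq_norm, e1, norm_mul, norm_cis, one_mul, Complex.sq_norm, Complex.normSq_apply]
  simp only [Complex.add_re, Complex.sub_re, Complex.add_im, Complex.sub_im, cis_re, cis_im,
    Complex.one_re, Complex.one_im, Real.cos_neg, Real.sin_neg]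
  rw [add_mul, Real.cos_add]
  have q1 := Real.sin_sq_add_cos_sq (η * (Real.pi / 3))
  have q2 := Real.sin_sq_add_cos_sq (δ * (Real.pi / 3))
  linear_combination q1 + q2

theorem shift_out {z y : ℂ} {φ : ℝ} (hy : y = pt z φ) {η δ : ℝ} (h0 : 0 < η) (h1 : 0 < δ)
    (h2 : η + δ < 3) : 1 < dist (pt z (φ + η) + (pt y (φ + (3 - δ)) - z)) z := by
  have hpi := Real.pi_pos
  have k1 : Real.cos (δ * (Real.pi / 3)) < 1 := by
    rw [← Real.cos_zero]
    exact Real.cos_lt_cos_of_nonneg_of_le_pi le_rfl (by nlinarith) (by positivity)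
  have k2 : Real.cos ((η + δ) * (Real.pi / 3)) < Real.cos (η * (Real.pi / 3)) :=
    Real.cos_lt_cos_of_nonneg_of_le_pi (by positivity) (by nlinarith) (by nlinarith)
  have k3 := shift_sq hy η δ
  have k4 := dist_nonneg (x := pt z (φ + η) + (pt y (φ + (3 - δ)) - z)) (y := z)
  nlinarith

theorem shift_in {z y : ℂ} {φ : ℝ} (hy : y = pt z φ) {η δ : ℝ} (h1 : 0 < δ)
    (h2 : δ < η) (h3 : η ≤ 1) : dist (pt z (φ + -η) + (pt y (φ + (3 - δ)) - z)) z < 1 := by
  have hpi := Real.pi_pos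
  set p := δ * (Real.pi / 3) / 2 with hp
  set q := η * (Real.pi / 3) - p with hq
  have p0 : 0 < p := by rw [hp]; positivity
  have pq : p < q := by rw [hq, hp]; nlinarith
  have qp : q ≤ Real.pi / 2 := by rw [hq]; nlinarith
  have s0 : 0 < Real.sin p := Real.sin_pos_of_pos_of_lt_pi p0 (by linarith)
  have s1 : Real.sin p < Real.sin q := Real.sin_lt_sin_of_lt_of_le_pi_div_two (by linarith) qp pq
  have k3 := shift_sq hy (-η) δ
  have e1 : -η * (Real.pi / 3) = -(p + q) := by rw [hq]; ring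
  have e2 : δ * (Real.pi / 3) = 2 * p := by rw [hp]; ring
  have e3 : (-η + δ) * (Real.pi / 3) = -(q - p) := by rw [hq, hp]; ring
  rw [e1, e2, e3, Real.cos_neg, Real.cos_neg, Real.cos_add p q, Real.cos_sub q p,
    Real.cos_two_mul] at k3
  have q1 := Real.sin_sq_add_cos_sq p
  have k4 := dist_nonneg (x := pt z (φ + -η) + (pt y (φ + (3 - δ)) - z)) (y := z)
  nlinarith [mul_pos s0 (sub_pos.2 s1)]

/-- the pairs of `S(y)` before `z` -/
theorem freq_out {z y : ℂ} {φ : ℝ} (hy : y = pt z φ) {a : Fin 6}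
    (hX : ∀ᶠ x in 𝓝[<] (3 : ℝ), a ∈ T (pt y (φ + x))) {η : ℝ} (h0 : 0 < η) (h1 : η < 1) :
    ∃ᶠ p in 𝓝 z, a ∈ T p ∧ 1 < dist (pt z (φ + η) + (p - z)) z := by
  have hc : Tendsto (fun x : ℝ => pt y (φ + x)) (𝓝[<] 3) (𝓝 z) := by
    have h2 : Continuous fun x : ℝ => pt y (φ + x) := (continuous_pt y).comp (by fun_prop)
    have h3 := h2.tendsto 3
    rw [z_pt hy] at h3
    exact h3.mono_left nhdsWithin_le_nhds
  refine hc.frequently (Eventually.frequently ?_)
  filter_upwards [hX, Ioo_mem_nhdsLT (show (2 : ℝ) < 3 by norm_num)] with x k1 k2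
  refine ⟨k1, ?_⟩
  have := shift_out hy (η := η) (δ := 3 - x) h0 (by linarith [k2.2]) (by linarith [k2.1])
  rwa [show (3 : ℝ) - (3 - x) = x by ring] at this

theorem freq_in {z y : ℂ} {φ : ℝ} (hy : y = pt z φ) {c : Fin 6}
    (hX : ∀ᶠ x in 𝓝[<] (3 : ℝ), c ∈ T (pt y (φ + x))) {η : ℝ} (h0 : 0 < η) (h1 : η < 1) :
    ∃ᶠ p in 𝓝 z, c ∈ T p ∧ dist (pt z (φ + -η) + (p - z)) z < 1 := by
  have hc : Tendsto (fun x : ℝ => pt y (φ + x)) (𝓝[<] 3) (𝓝 z) := by
    have h2 : Continuous fun x : ℝ => pt y (φ + x) := (continuous_pt y).comp (by fun_prop)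
    have h3 := h2.tendsto 3
    rw [z_pt hy] at h3
    exact h3.mono_left nhdsWithin_le_nhds
  refine hc.frequently (Eventually.frequently ?_)
  filter_upwards [hX, Ioo_mem_nhdsLT (show (3 - η : ℝ) < 3 by linarith)] with x k1 k2
  refine ⟨k1, ?_⟩
  have := shift_in hy (η := η) (δ := 3 - x) (by linarith [k2.2]) (by linarith [k2.1]) h1.le
  rwa [show (3 : ℝ) - (3 - x) = x by ring] at this

/-! ## ends from arcs -/

/-- an end of an exact arc in the angle coordinate -/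
theorem oend_arc {z : ℂ} {a b c d g : Fin 6} (hz : DPt T z a b c d) (hg : g ∉ T z) {x o : ℝ}
    (ho : o = 1 ∨ o = -1) (hT : T (pt z x) = {a, b, g}) {ε : ℝ} (hε : 0 < ε)
    (harc : ∀ t, 0 < t → t < ε → T (pt z (x - o * t)) = {a, b}) : OEnd T z (pt z x) o := by
  have hpi := Real.pi_pos
  have ga : a ≠ g := by rintro rfl; exact hg (by rw [hz.pal]; simp)
  have gb : b ≠ g := by rintro rfl; exact hg (by rw [hz.pal]; simp)
  have hint : T z ∩ T (pt z x) = {a, b} := by
    rw [hT]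
    ext i
    simp only [mem_inter_iff, mem_insert_iff, mem_singleton_iff]
    constructor
    · rintro ⟨h1, rfl | rfl | rfl⟩
      exacts [Or.inl rfl, Or.inr rfl, absurd h1 hg]
    · rintro (rfl | rfl)
      · exact ⟨by rw [hz.pal]; simp, Or.inl rfl⟩
      · exact ⟨by rw [hz.pal]; simp, Or.inr (Or.inl rfl)⟩
  refine ⟨ho, dist_pt z x, Tp.card ⟨_, _, _, _, hz⟩, ?_, ?_, ε * (Real.pi / 3), by positivity,
    fun t ht => ?_⟩
  · rw [hT]
    exact Set.ncard_eq_three.2 ⟨a, b, g, hz.ab, ga, gb, rfl⟩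
  · rw [hint]; exact Set.ncard_pair hz.ab
  · rw [hint]
    have h1 := harc (t / (Real.pi / 3)) (div_pos ht.1 (by positivity))
      ((div_lt_iff₀ (by positivity)).2 ht.2)
    have h2 : pt z (x - o * (t / (Real.pi / 3))) = z + (pt z x - z) * cis (-(o * t)) := by
      rw [pt_sub]
      unfold pt
      rw [← S5.H767.cis_add]
      congr 2
      field_simp
      ring
    rw [← h2]
    exact h1

theorem ee_arc {z : ℂ} {a b c d g : Fin 6} (hz : DPt T z a b c d) (hg : g ∉ T z) {x o : ℝ}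
    (hT : T (pt z x) = {a, b, g}) (hE : OEnd T z (pt z x) o) : EE T z (pt z x) := by
  refine ⟨⟨o, hE⟩, ?_⟩
  have : T z \ T (pt z x) = {c, d} := by
    rw [hT, hz.pal]
    have gc : c ≠ g := by rintro rfl; exact hg (by rw [hz.pal]; simp)
    have gd : d ≠ g := by rintro rfl; exact hg (by rw [hz.pal]; simp)
    ext i
    simp only [Set.mem_sdiff, mem_insert_iff, mem_singleton_iff, not_or]
    constructor
    · rintro ⟨h1 | h1 | h1 | h1, h2, h3, h4⟩
      exacts [absurd h1 h2, absurd h1 h3, Or.inl h1, Or.inr h1]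
    · rintro (rfl | rfl)
      · exact ⟨by simp, hz.ac.symm, hz.bc.symm, gc⟩
      · exact ⟨by simp, hz.ad.symm, hz.bd.symm, gd⟩
  rw [this]
  exact hz.arc2

theorem inter_arc {z : ℂ} {a b c d g : Fin 6} (hz : DPt T z a b c d) (hg : g ∉ T z) {v : ℂ}
    (hT : T v = {a, b, g}) : T z ∩ T v = {a, b} := by
  rw [hT]
  ext i
  simp only [mem_inter_iff, mem_insert_iff, mem_singleton_iff]
  constructor
  · rintro ⟨h1, rfl | rfl | rfl⟩
    exacts [Or.inl rfl, Or.inr rfl, absurd h1 hg]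
  · rintro (rfl | rfl)
    · exact ⟨by rw [hz.pal]; simp, Or.inl rfl⟩
    · exact ⟨by rw [hz.pal]; simp, Or.inr (Or.inl rfl)⟩

/-- no end on the other side -/
theorem not_oend {z : ℂ} {a b c d g : Fin 6} (hz : DPt T z a b c d) (hg : g ∉ T z) {x : ℝ}
    (hT : T (pt z x) = {a, b, g}) (hne : ∃ᶠ t in 𝓝[<] x, T (pt z t) ≠ {a, b}) :
    ¬ OEnd T z (pt z x) 1 := by
  have hpi := Real.pi_pos
  rintro ⟨-, -, -, -, -, ε, hε, hg'⟩
  rw [inter_arc hz hg hT] at hg'
  refine hne ?_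
  have h1 : x - ε / (Real.pi / 3) < x := by
    have : 0 < ε / (Real.pi / 3) := by positivity
    linarith
  filter_upwards [Ioo_mem_nhdsLT h1] with t ht
  rw [not_not]
  have h2 := hg' ((x - t) * (Real.pi / 3)) ⟨by nlinarith [ht.2], by
    have := (lt_div_iff₀ (show 0 < Real.pi / 3 by positivity)).1
      (show x - t < ε / (Real.pi / 3) by linarith [ht.1])
    exact this⟩
  have h3 : z + (pt z x - z) * cis (-(1 * ((x - t) * (Real.pi / 3)))) = pt z t := by
    rw [pt_sub]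
    unfold pt
    rw [← S5.H767.cis_add]
    congr 2
    ring
  rw [h3] at h2
  exact h2

theorem ore_neg {z v : ℂ} (h : ¬ OEnd T z v 1) : ore T z v = -1 := by
  unfold ore; rw [if_neg h]

theorem ore_pos {z v : ℂ} (h : OEnd T z v 1) : ore T z v = 1 := by
  unfold ore; rw [if_pos h]

/-! ## the word -/

/-- the word with two squares at `z`, and the facts at the `J`-partner `y` -/
structure SqW (U : Fin 6 → Set ℂ) (T : ℂ → Set (Fin 6)) (z y : ℂ) (a b c d e f : Fin 6)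
    (φ t s θ ψ : ℝ) : Prop where
  J : JPair U T z y a b c d e f
  yz : y = pt z φ
  t0 : 0 < t
  t1 : t < 1
  s0 : 0 < s
  s1 : s < 1
  θ0 : 1 < θ
  θ1 : θ < 2 + s
  ψ0 : 3 + s < ψ
  ψ1 : ψ < 5
  zC1 : ∀ x, t - 1 < x → x < 0 → T (pt z (φ + x)) = {c, d}
  zA1 : ∀ x, 0 < x → x < t → T (pt z (φ + x)) = {a, b}
  zC2 : ∀ x, θ < x → x < 2 + s → T (pt z (φ + x)) = {c, d}
  zA2 : ∀ x, 3 + s < x → x < ψ → T (pt z (φ + x)) = {a, b}
  e1 : T (pt z (φ + (t - 1))) = {c, d, f}
  e2 : T (pt z (φ + t)) = {a, b, f}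
  e3 : T (pt z (φ + θ)) = {c, d, e}
  e4 : T (pt z (φ + (2 + s))) = {c, d, f}
  e5 : T (pt z (φ + (3 + s))) = {a, b, f}
  e6 : T (pt z (φ + ψ)) = {a, b, e}
  o3 : ∃ᶠ x in 𝓝[<] (φ + θ), T (pt z x) ≠ {c, d}
  yX : ∀ᶠ x in 𝓝[<] (3 : ℝ), T (pt y (φ + x)) = {a, c}
  H1 : ∀ x, t < x → x < 2 → ¬ (a ∈ T (pt y (φ + x)) ∧ c ∈ T (pt y (φ + x)))
  H3 : ∀ x, t < x → x < 2 → T (pt y (φ + x)) ≠ {b, d, e}
  H1' : ∀ x, 4 < x → x < t + 5 → ¬ (b ∈ T (pt y (φ + x)) ∧ d ∈ T (pt y (φ + x)))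
  H3' : ∀ x, 4 < x → x < t + 5 → T (pt y (φ + x)) ≠ {a, c, e}

namespace SqW

variable {z y : ℂ} {a b c d e f : Fin 6} {φ t s θ ψ : ℝ}

theorem eTz (H : SqW U T z y a b c d e f φ t s θ ψ) : e ∉ T z ∧ f ∉ T z := by
  obtain ⟨⟨ab, ac, ad, ae, af⟩, ⟨bc, bd, be, bf⟩, ⟨cd, ce, cf⟩, ⟨de, df⟩, ef⟩ :=
    S5.H349.nd_ne H.J.nd
  rw [H.J.hz.pal]
  simp only [mem_insert_iff, mem_singleton_iff, not_or]
  exact ⟨⟨ae.symm, be.symm, ce.symm, de.symm⟩, ⟨af.symm, bf.symm, cf.symm, df.symm⟩⟩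

/-- the inner colour of the second `cd`-arc -/
theorem inn3 (H : SqW U T z y a b c d e f φ t s θ ψ) :
    inn U T z (pt z (φ + θ)) = c := by
  have hpi := Real.pi_pos
  have h := H.J.irr
  have hz := H.J.hz.swap
  have t0 := H.t0
  have t1 := H.t1
  have θ0 := H.θ0
  have θ1 := H.θ1
  have s1 := H.s1
  rw [EE.inn_iff h hz (dist_pt z _) (inter_arc hz H.eTz.1 H.e3)]
  -- a direction of an `ab`-arc
  have hg : Arc T z (pt z (φ + t / 2)) {a, b} :=
    h.arc_of_eq H.J.hz.ab (by rw [H.J.hz.pal]; simp) (by rw [H.J.hz.pal]; simp) (dist_pt z _)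
      (H.zA1 _ (by linarith) (by linarith))
  obtain ⟨ε, hε, hs⟩ := h.sd_iff492 hz hg
  -- the point on the first `cd`-arc
  have hT1 := H.zC1 (-((1 - t) / 2)) (by linarith) (by linarith)
  have c1 : c ∈ T (pt z (φ + -((1 - t) / 2))) := by rw [hT1]; exact Or.inl rfl
  have c3 : c ∈ T (pt z (φ + θ)) := by rw [H.e3]; exact Or.inl rfl
  have n1 : cr (pt z (φ + t / 2) - z) (pt z (φ + -((1 - t) / 2)) - z) < 0 := by
    rw [cr_pt, show (φ + -((1 - t) / 2) - (φ + t / 2)) = -(1 / 2) by ring]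
    exact Real.sin_neg_of_neg_of_neg_pi_lt (by nlinarith) (by nlinarith)
  have n3 : 0 < cr (pt z (φ + t / 2) - z) (pt z (φ + θ) - z) := by
    rw [cr_pt, show (φ + θ - (φ + t / 2)) = θ - t / 2 by ring]
    exact Real.sin_pos_of_pos_of_lt_pi (by nlinarith) (by nlinarith)
  have k1 := hs _ (dist_pt z _) c1 n1.ne
  have k3 := hs _ (dist_pt z _) c3 n3.ne'
  have k := not_sd_in h (c := c) (d := d) (dist_pt z (φ + -((1 - t) / 2))) hT1.subset
    (freq_in H.yz (c := c) (H.yX.mono fun x hx => by rw [hx]; exact Or.inr rfl)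
      (by linarith) (by linarith))
  rw [k1] at k
  rw [k3]
  rcases hε with rfl | rfl
  · linarith
  · exfalso; apply k; linarith

/-- the inner colour of the second `ab`-arc -/
theorem inn6 (H : SqW U T z y a b c d e f φ t s θ ψ) :
    inn U T z (pt z (φ + ψ)) = b := by
  have hpi := Real.pi_pos
  have h := H.J.irr
  have hz := H.J.hz.swap12
  have t0 := H.t0
  have t1 := H.t1
  have θ0 := H.θ0
  have θ1 := H.θ1
  have s0 := H.s0
  have s1 := H.s1
  have ψ0 := H.ψ0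
  have ψ1 := H.ψ1
  rw [EE.inn_iff h hz (dist_pt z _) (inter_arc hz H.eTz.1
    (by rw [H.e6, Set.insert_comm]))]
  -- a direction of a `cd`-arc
  obtain ⟨g, g1, g2⟩ : ∃ g, max θ 2 < g ∧ g < 2 + s := exists_between (max_lt θ1 (by linarith))
  have gθ : θ < g := lt_of_le_of_lt (le_max_left _ _) g1
  have g0 : 2 < g := lt_of_le_of_lt (le_max_right _ _) g1
  have hg : Arc T z (pt z (φ + g)) {c, d} :=
    h.arc_of_eq H.J.hz.cd (by rw [H.J.hz.pal]; simp) (by rw [H.J.hz.pal]; simp) (dist_pt z _)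
      (H.zC2 _ gθ g2)
  obtain ⟨ε, hε, hs⟩ := h.sd_iff492 hz hg
  -- the point on the first `ab`-arc
  have hT1 := H.zA1 (t / 2) (by linarith) (by linarith)
  have b1 : b ∈ T (pt z (φ + t / 2)) := by rw [hT1]; exact Or.inr rfl
  have b3 : b ∈ T (pt z (φ + ψ)) := by rw [H.e6]; exact Or.inr (Or.inl rfl)
  have n1 : cr (pt z (φ + g) - z) (pt z (φ + t / 2) - z) < 0 := by
    rw [cr_pt, show (φ + t / 2 - (φ + g)) = -(g - t / 2) by ring]
    exact Real.sin_neg_of_neg_of_neg_pi_lt (by nlinarith) (by nlinarith)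
  have n3 : 0 < cr (pt z (φ + g) - z) (pt z (φ + ψ) - z) := by
    rw [cr_pt, show (φ + ψ - (φ + g)) = ψ - g by ring]
    exact Real.sin_pos_of_pos_of_lt_pi (by nlinarith) (by nlinarith)
  have k1 := hs _ (dist_pt z _) b1 n1.ne
  have k3 := hs _ (dist_pt z _) b3 n3.ne'
  have k := not_sd_out h (a := a) (b := b) (dist_pt z (φ + t / 2)) hT1.subset
    (freq_out H.yz (a := a) (H.yX.mono fun x hx => by rw [hx]; exact Or.inl rfl)
      (by linarith) (by linarith))
  rw [k1] at k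
  rw [k3]
  rcases hε with rfl | rfl
  · linarith
  · exfalso; apply k; linarith

/-- **the word with two squares does not exist** -/
theorem false (hS : Sec4 T) (H : SqW U T z y a b c d e f φ t s θ ψ) : False := by
  have hpi := Real.pi_pos
  have h := H.J.irr
  have hz := H.J.hz
  have t0 := H.t0
  have t1 := H.t1
  have θ0 := H.θ0
  have θ1 := H.θ1
  have s0 := H.s0
  have s1 := H.s1
  have ψ0 := H.ψ0
  have ψ1 := H.ψ1
  obtain ⟨he, hf⟩ := H.eTz
  obtain ⟨⟨ab, ac, ad, ae, af⟩, ⟨bc, bd, be, bf⟩, ⟨cd, ce, cf⟩, ⟨de, df⟩, ef⟩ :=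
    S5.H349.nd_ne H.J.nd
  -- the six ends
  have O1 : OEnd T z (pt z (φ + (t - 1))) (-1) := oend_arc hz.swap hf (Or.inr rfl) H.e1
    (ε := 1 - t) (by linarith) fun r h1 h2 => by
      rw [show φ + (t - 1) - -1 * r = φ + (t - 1 + r) by ring]
      exact H.zC1 _ (by linarith) (by linarith)
  have O2 : OEnd T z (pt z (φ + t)) 1 := oend_arc hz hf (Or.inl rfl) H.e2
    (ε := t) t0 fun r h1 h2 => by
      rw [show φ + t - 1 * r = φ + (t - r) by ring]
      exact H.zA1 _ (by linarith) (by linarith)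
  have O3 : OEnd T z (pt z (φ + θ)) (-1) := oend_arc hz.swap he (Or.inr rfl) H.e3
    (ε := 2 + s - θ) (by linarith) fun r h1 h2 => by
      rw [show φ + θ - -1 * r = φ + (θ + r) by ring]
      exact H.zC2 _ (by linarith) (by linarith)
  have O4 : OEnd T z (pt z (φ + (2 + s))) 1 := oend_arc hz.swap hf (Or.inl rfl) H.e4
    (ε := 2 + s - θ) (by linarith) fun r h1 h2 => by
      rw [show φ + (2 + s) - 1 * r = φ + (2 + s - r) by ring]
      exact H.zC2 _ (by linarith) (by linarith)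
  have O5 : OEnd T z (pt z (φ + (3 + s))) (-1) := oend_arc hz hf (Or.inr rfl) H.e5
    (ε := ψ - (3 + s)) (by linarith) fun r h1 h2 => by
      rw [show φ + (3 + s) - -1 * r = φ + (3 + s + r) by ring]
      exact H.zA2 _ (by linarith) (by linarith)
  have O6 : OEnd T z (pt z (φ + ψ)) 1 := oend_arc hz he (Or.inl rfl) H.e6
    (ε := ψ - (3 + s)) (by linarith) fun r h1 h2 => by
      rw [show φ + ψ - 1 * r = φ + (ψ - r) by ring]
      exact H.zA2 _ (by linarith) (by linarith)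
  have E1 := ee_arc hz.swap hf H.e1 O1
  have E2 := ee_arc hz hf H.e2 O2
  have E3 := ee_arc hz.swap he H.e3 O3
  have E4 := ee_arc hz.swap hf H.e4 O4
  have E5 := ee_arc hz hf H.e5 O5
  have E6 := ee_arc hz he H.e6 O6
  have ore3 := ore_neg (not_oend hz.swap he H.e3 H.o3)
  have ore6 := ore_pos O6
  -- the points
  have p2 : pn z y (1 * (t * (Real.pi / 3))) = pt z (φ + t) := by rw [one_mul, pn_pt H.yz]
  have p3 : pn z y (1 * (θ * (Real.pi / 3))) = pt z (φ + θ) := by rw [one_mul, pn_pt H.yz]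
  have p5 : pn z y (1 * (Real.pi + s * (Real.pi / 3))) = pt z (φ + (3 + s)) := by
    rw [← pn_pt H.yz]; congr 1; ring
  have p1 : pn z y (-1 * (Real.pi / 3 - t * (Real.pi / 3))) = pt z (φ + (t - 1)) := by
    rw [← pn_pt H.yz]; congr 1; ring
  have p6 : pn z y (-1 * ((6 - ψ) * (Real.pi / 3))) = pt z (φ + ψ) := by
    have k := pt_six z (φ + (ψ - 6))
    rw [show φ + (ψ - 6) + 6 = φ + ψ by ring] at k
    rw [k, ← pn_pt H.yz]; congr 1; ring
  have p4 : pn z y (-1 * (Real.pi + (Real.pi / 3 - s * (Real.pi / 3)))) =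
      pt z (φ + (2 + s)) := by
    have k := pt_six z (φ + (s - 4))
    rw [show φ + (s - 4) + 6 = φ + (2 + s) by ring] at k
    rw [k, ← pn_pt H.yz]; congr 1; ring
  have q1 : ∀ x : ℝ, y + (y - z) * cis (1 * x) = pt y (φ + x / (Real.pi / 3)) := by
    intro x
    rw [← py_pt H.yz]
    congr 3
    field_simp
  have q2 : ∀ x : ℝ, y + (y - z) * cis (-1 * x) = pt y (φ + (6 - x / (Real.pi / 3))) := by
    intro x
    rw [show φ + (6 - x / (Real.pi / 3)) = φ + -(x / (Real.pi / 3)) + 6 by ring, pt_six,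
      ← py_pt H.yz]
    congr 3
    field_simp
  have hL : ∀ x : ℝ, t * (Real.pi / 3) < x → t < x / (Real.pi / 3) := fun x hx =>
    (lt_div_iff₀ (by positivity)).2 hx
  have hR : ∀ x : ℝ, x < 2 * Real.pi / 3 → x / (Real.pi / 3) < 2 := fun x hx =>
    (div_lt_iff₀ (by positivity)).2 (by linarith)
  have hL' : ∀ x : ℝ, Real.pi / 3 - t * (Real.pi / 3) < x → 6 - x / (Real.pi / 3) < t + 5 :=
    fun x hx => by
      have := (lt_div_iff₀ (show 0 < Real.pi / 3 by positivity)).2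
        (show (1 - t) * (Real.pi / 3) < x by linarith)
      linarith
  have A1 : SqHalf U T z y a b c d e f 1 (t * (Real.pi / 3)) (s * (Real.pi / 3))
      (θ * (Real.pi / 3)) := by
    refine ⟨H.J.nd, hz, H.J.hy, H.J.dyz, H.J.wy, Or.inl rfl, by positivity, by nlinarith,
      by positivity, by nlinarith, by nlinarith, by nlinarith, ?_, ?_, ?_, ?_, ?_, ?_, ?_, ?_,
      ?_, ?_⟩
    · rw [p2]; exact E2
    · rw [p2]; exact H.e2
    · rw [p3]; exact E3
    · rw [p3]; exact H.e3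
    · rw [p5]; exact E5
    · rw [p5]; exact H.e5
    · rw [p3]; exact ore3
    · rw [p3]; exact H.inn3
    · intro x h1 h2
      rw [q1]
      exact H.H1 _ (hL x h1) (hR x h2)
    · intro x h1 h2
      rw [q1]
      exact H.H3 _ (hL x h1) (hR x h2)
  have A2 : SqHalf U T z y d c b a e f (-1) (Real.pi / 3 - t * (Real.pi / 3))
      (Real.pi / 3 - s * (Real.pi / 3)) ((6 - ψ) * (Real.pi / 3)) := by
    refine ⟨?_, hz.swap.swap12.swap34, H.J.hy.swap.swap12.swap34, H.J.dyz, H.J.wy, Or.inr rfl,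
      by nlinarith, by nlinarith, by nlinarith, by nlinarith, by nlinarith, by nlinarith,
      ?_, ?_, ?_, ?_, ?_, ?_, ?_, ?_, ?_, ?_⟩
    · simp only [List.nodup_cons, List.mem_cons, List.not_mem_nil, or_false, not_or,
        List.nodup_nil, and_true, not_false_eq_true]
      exact ⟨⟨cd.symm, bd.symm, ad.symm, de, df⟩, ⟨bc.symm, ac.symm, ce, cf⟩, ⟨ab.symm, be, bf⟩,
        ⟨ae, af⟩, ef⟩
    · rw [p1]; exact E1
    · rw [p1, H.e1, Set.insert_comm]
    · rw [p6]; exact E6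
    · rw [p6, H.e6, Set.insert_comm]
    · rw [p4]; exact E4
    · rw [p4, H.e4, Set.insert_comm]
    · rw [p6, ore6]; norm_num
    · rw [p6]; exact H.inn6
    · intro x h1 h2
      rw [q2]
      have := H.H1' (6 - x / (Real.pi / 3)) (by linarith [hR x h2]) (hL' x h1)
      exact fun k => this ⟨k.2, k.1⟩
    · intro x h1 h2
      rw [q2]
      have := H.H3' (6 - x / (Real.pi / 3)) (by linarith [hR x h2]) (hL' x h1)
      rwa [Set.insert_comm] at this
  exact twoSq_dead h hS A1 (by simpa using A2)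

end SqW

end Vale.Agent.P032.H695
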