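import Vale.Agent.P032.H695.Kkm
import Vale.Agent.P032.S5.H767.Raw

/-!
# P032: parity at a full two-pair centre

`Ctr.par` : a four coloured centre whose exact `ab`-arcs form one arc of length at most `60` degrees
with end points without `e`, `f`, without exact `cd`-arcs on the back side, and without swaps:
`Par T z e f`.
-/

open Set Filter Topology Metric

noncomputable section

namespace Vale.Agent.P032.H695

open Vale.Agent.P032.Six Vale.Agent.P032.S5.H767
open Vale.Agent.P032.H180 hiding pt pt_six dist_pt continuous_pt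

variable {U : Fin 6 → Set ℂ} {T : ℂ → Set (Fin 6)} {z : ℂ} {a b c d e f : Fin 6}

/-- the three letters at a point of the circle: `e`, `f`, a pair -/
def Q3 (T : ℂ → Set (Fin 6)) (z : ℂ) (a b c d e f : Fin 6) (y : ℂ) : Set (Fin 3) :=
  {l | (l = 0 ∧ y ∈ Lt T z a b c d e f 0) ∨ (l = 1 ∧ y ∈ Lt T z a b c d e f 1) ∨
    (l = 2 ∧ (y ∈ Lt T z a b c d e f 2 ∨ y ∈ Lt T z a b c d e f 3))}

theorem Q3_zero {y : ℂ} : 0 ∈ Q3 T z a b c d e f y ↔ y ∈ Lt T z a b c d e f 0 := by simp [Q3]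

theorem Q3_one {y : ℂ} : 1 ∈ Q3 T z a b c d e f y ↔ y ∈ Lt T z a b c d e f 1 := by simp [Q3]

theorem Q3_two {y : ℂ} : 2 ∈ Q3 T z a b c d e f y ↔
    y ∈ Lt T z a b c d e f 2 ∨ y ∈ Lt T z a b c d e f 3 := by simp [Q3]

/-- merging the two pairs -/
def mg : Fin 4 → Fin 3 := ![0, 1, 2, 2]

theorem Q3_mg {y : ℂ} {l : Fin 4} (h : y ∈ Lt T z a b c d e f l) : mg l ∈ Q3 T z a b c d e f y := by
  fin_cases l
  · exact Q3_zero.2 h
  · exact Q3_one.2 h
  · exact Q3_two.2 (Or.inl h)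
  · exact Q3_two.2 (Or.inr h)

theorem Q3_of_mg {y : ℂ} {l : Fin 4} (h : mg l ∈ Q3 T z a b c d e f y) (hl : l ≠ 2)
    (h2 : y ∉ Lt T z a b c d e f 2) : y ∈ Lt T z a b c d e f l := by
  fin_cases l
  · exact Q3_zero.1 h
  · exact Q3_one.1 h
  · exact absurd rfl hl
  · exact (Q3_two.1 h).resolve_left h2

theorem Q3_closed (h : Irr U T) (l : Fin 3) : IsClosed {y | l ∈ Q3 T z a b c d e f y} := by
  have hl : l = 0 ∨ l = 1 ∨ l = 2 := by fin_cases l <;> simp
  rcases hl with rfl | rfl | rfl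
  · simp only [Q3_zero]
    exact Lt_closed (a := a) (b := b) (c := c) (d := d) (e := e) (f := f) (z := z) h 0
  · simp only [Q3_one]
    exact Lt_closed (a := a) (b := b) (c := c) (d := d) (e := e) (f := f) (z := z) h 1
  · simp only [Q3_two]
    exact (Lt_closed (a := a) (b := b) (c := c) (d := d) (e := e) (f := f) (z := z) h 2).union
      (Lt_closed (a := a) (b := b) (c := c) (d := d) (e := e) (f := f) (z := z) h 3)

/-- two different letters of `y` and `y'` in common -/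
def Swp (T : ℂ → Set (Fin 6)) (z : ℂ) (a b c d e f : Fin 6) (y y' : ℂ) : Prop :=
  ∃ l m : Fin 4, l ≠ m ∧ y ∈ Lt T z a b c d e f l ∧ y ∈ Lt T z a b c d e f m ∧
    y' ∈ Lt T z a b c d e f l ∧ y' ∈ Lt T z a b c d e f m

/-- incomparable letters -/
theorem not_sub (C : Ctr U T z a b c d e f) {y y' : ℂ} (hy : dist y z = 1) (hy' : dist y' z = 1)
    (hyy : dist y y' = 1) (h2 : y ∉ Lt T z a b c d e f 2) (h2' : y' ∉ Lt T z a b c d e f 2)
    (hsw : ¬ Swp T z a b c d e f y y') :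
    ¬ Q3 T z a b c d e f y ⊆ Q3 T z a b c d e f y' := by
  intro hsub
  obtain ⟨l, hl⟩ := C.cover hy
  have key : ∀ m, y ∈ Lt T z a b c d e f m → y' ∈ Lt T z a b c d e f m := by
    intro m hm
    have hm2 : m ≠ 2 := fun h => h2 (h ▸ hm)
    exact Q3_of_mg (hsub (Q3_mg hm)) hm2 h2'
  by_cases hex : ∃ m, m ≠ l ∧ y ∈ Lt T z a b c d e f m
  · obtain ⟨m, hml, hm⟩ := hex
    exact hsw ⟨m, l, hml, hm, hl, key m hm, key l hl⟩
  · push Not at hex
    refine C.int hy (fun m hm => ?_) hy' hyy (key l hl)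
    by_contra hml
    exact hex m hml hm

/-- **Parity at a full centre.** -/
theorem Ctr.par (C : Ctr U T z a b c d e f) {u0 α : ℝ} (hα0 : 0 ≤ α) (hα1 : α ≤ 1)
    (hX : ∀ t ∈ Icc (0 : ℝ) α, e ∉ T (pt z (u0 + t)) ∧ f ∉ T (pt z (u0 + t)))
    (hXonly : ∀ t ∈ Ioo α (6 : ℝ), pt z (u0 + t) ∉ closure (Ex T z {a, b}))
    (hback : ∀ t ∈ Icc (0 : ℝ) α, pt z (u0 + 3 + t) ∉ closure (Ex T z {c, d}))
    (hsw : (∀ q, dist q z = 1 → e ∈ T q → f ∈ T q → q ∉ closure (Ex T z {a, b}) ∧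
        q ∉ closure (Ex T z {c, d})) →
      ∀ y y', dist y z = 1 → dist y' z = 1 → dist y y' = 1 → y ∉ closure (Ex T z {a, b}) →
        y' ∉ closure (Ex T z {a, b}) → ¬ Swp T z a b c d e f y y') :
    Par T z e f := by
  intro T' hcl hne hT
  by_contra hno
  have hn := C.nd
  simp only [List.nodup_cons, List.mem_cons, List.not_mem_nil, or_false, not_or, List.nodup_nil,
    and_true, not_false_eq_true] at hn
  obtain ⟨⟨ab, ac, ad, ae, af⟩, ⟨bc, bd, be, bf⟩, ⟨cd, ce, cf⟩, ⟨de, df⟩, ef⟩ := hn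
  -- pair arcs carry the label `2`
  have h2 : ∀ P : Set (Fin 6), e ∉ P → f ∉ P → ∀ q ∈ closure (Ex T z P),
      2 ∈ KK T' z e f q := by
    intro P he hf q hq
    refine closure_minimal (fun y hy => ?_) (KK_closed (z := z) (e := e) (f := f) hcl 2) hq
    have hy1 := ex_self hy
    have hyT : T' y = P := (hT y hy.1).trans hy1
    exact KK_two.2 (exists_inn hcl hne hy.1.le (by rw [hyT]; exact he) (by rw [hyT]; exact hf))
  have h2a := h2 {a, b} (by simp [Ne.symm ae, Ne.symm be]) (by simp [Ne.symm af, Ne.symm bf])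
  have h2c := h2 {c, d} (by simp [Ne.symm ce, Ne.symm de]) (by simp [Ne.symm cf, Ne.symm df])
  have hQK : ∀ y, dist y z = 1 → Q3 T z a b c d e f y ⊆ KK T' z e f y := by
    intro y hy l hl
    rcases hl with ⟨rfl, h⟩ | ⟨rfl, h⟩ | ⟨rfl, h | h⟩
    · exact KK_zero.2 (by rw [hT y hy]; exact h.2)
    · exact KK_one.2 (by rw [hT y hy]; exact h.2)
    · exact h2a y h
    · exact h2c y h
  -- no triple point
  have hntr : ∀ q, dist q z = 1 → ¬ ∀ l, l ∈ Q3 T z a b c d e f q := by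
    intro q hq hall
    obtain ⟨x, hx1, hx2, hx3⟩ := KK_two.1 (hQK q hq (hall 2))
    exact hno ⟨q, x, hq.le, KK_zero.1 (hQK q hq (hall 0)), KK_one.1 (hQK q hq (hall 1)), hx1, hx2,
      hx3⟩
  have hsw' := hsw fun q hq he hf => by
    constructor
    · intro h
      refine hntr q hq fun l => ?_
      have hl : l = 0 ∨ l = 1 ∨ l = 2 := by fin_cases l <;> simp
      rcases hl with rfl | rfl | rfl
      exacts [Q3_zero.2 ⟨hq, he⟩, Q3_one.2 ⟨hq, hf⟩, Q3_two.2 (Or.inl h)]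
    · intro h
      refine hntr q hq fun l => ?_
      have hl : l = 0 ∨ l = 1 ∨ l = 2 := by fin_cases l <;> simp
      rcases hl with rfl | rfl | rfl
      exacts [Q3_zero.2 ⟨hq, he⟩, Q3_one.2 ⟨hq, hf⟩, Q3_two.2 (Or.inr h)]
  obtain ⟨g, hg, hg6⟩ := exists_sec hcl hne hno ((u0 - 3) * (Real.pi / 3))
  have e1 : ∀ t : ℝ, z + cis ((u0 - 3) * (Real.pi / 3) + t * (Real.pi / 3)) =
      pt z (u0 - 3 + t) := by
    intro t; unfold pt; congr 2; ring
  have e2 : z + cis ((u0 - 3) * (Real.pi / 3)) = pt z (u0 - 3 + 0) := by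
    rw [← e1, zero_mul, add_zero]
  simp only [e1] at hg
  rw [e2] at hg6
  have hcov : Cov fun t => Q3 T z a b c d e f (pt z (u0 - 3 + t)) := by
    refine ⟨fun t => ?_, fun t => ?_, fun t => ?_, fun t => ?_⟩
    · have h1 : u0 - 3 + (t + 6) = u0 - 3 + t + 6 := by ring
      simp only [h1, pt_six]
    · obtain ⟨l, hl⟩ := C.cover (dist_pt z (u0 - 3 + t))
      exact ⟨mg l, Q3_mg hl⟩
    · by_contra hcon
      push Not at hcon
      exact hntr _ (dist_pt z _) hcon
    · have h1 : Tendsto (fun s : ℝ => pt z (u0 - 3 + s)) (𝓝 t) (𝓝 (pt z (u0 - 3 + t))) :=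
        ((continuous_pt z).comp (continuous_const_add (u0 - 3))).tendsto t
      have h3 : ∀ l, ∀ᶠ y in 𝓝 (pt z (u0 - 3 + t)), l ∈ Q3 T z a b c d e f y →
          l ∈ Q3 T z a b c d e f (pt z (u0 - 3 + t)) := by
        intro l
        by_cases hl : l ∈ Q3 T z a b c d e f (pt z (u0 - 3 + t))
        · exact Eventually.of_forall fun _ _ => hl
        · filter_upwards [(Q3_closed C.irr l).isOpen_compl.mem_nhds hl] with y hy hy'
          exact absurd hy' hy
      filter_upwards [h1.eventually (eventually_all.2 h3)] with y hy l hl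
      exact hy l hl
  refine hcov.full_odd (α := α) hα0 hα1 (fun t ht => ?_) (fun t ht h => ?_) (fun t ht => ?_)
    (g := g) ⟨fun t ht i hi j hj => hg.diff t ht i (hQK _ (dist_pt z _) hi) j
      (hQK _ (dist_pt z _) hj), fun t ht => ?_⟩ fun i hi => hg6 i (hQK _ (dist_pt z _) hi)
  · have h1 := hX (t - 3) ⟨by linarith [ht.1], by linarith [ht.2]⟩
    have h3 : u0 + (t - 3) = u0 - 3 + t := by ring
    rw [h3] at h1
    intro l hl
    rcases hl with ⟨rfl, h⟩ | ⟨rfl, h⟩ | ⟨rfl, h⟩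
    · exact absurd h.2 h1.1
    · exact absurd h.2 h1.2
    · rfl
  · rcases Q3_two.1 h with h | h
    · have h3 : u0 + (t - 3) = u0 - 3 + t := by ring
      have h4 := hXonly (t - 3) ⟨by linarith [ht.1], by linarith [ht.2]⟩
      rw [h3] at h4
      exact h4 h
    · have h3 : u0 + 3 + (t - 6) = u0 - 3 + t := by ring
      have h4 := hback (t - 6) ⟨by linarith [ht.1], by linarith [ht.2]⟩
      rw [h3] at h4
      exact h4 h
  · have h3 : u0 + (t - 3) = u0 - 3 + t := by ring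
    have h3' : u0 + (t - 2) = u0 - 3 + (t + 1) := by ring
    have h4 := hXonly (t - 3) ⟨by linarith [ht.1], by linarith [ht.2]⟩
    have h4' := hXonly (t - 2) ⟨by linarith [ht.1], by linarith [ht.2]⟩
    rw [h3] at h4
    rw [h3'] at h4'
    have h5 : dist (pt z (u0 - 3 + t)) (pt z (u0 - 3 + (t + 1))) = 1 := by
      have := dist_pt_one z (u0 - 3 + t)
      rwa [add_assoc] at this
    have h6 : ¬ Swp T z a b c d e f (pt z (u0 - 3 + t)) (pt z (u0 - 3 + (t + 1))) :=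
      hsw' _ _ (dist_pt z _) (dist_pt z _) h5 h4 h4'
    have h6' : ¬ Swp T z a b c d e f (pt z (u0 - 3 + (t + 1))) (pt z (u0 - 3 + t)) := by
      rintro ⟨l, m, hlm, k1, k2, k3, k4⟩
      exact h6 ⟨l, m, hlm, k3, k4, k1, k2⟩
    exact ⟨not_sub C (dist_pt z _) (dist_pt z _) h5 h4 h4' h6,
      not_sub C (dist_pt z _) (dist_pt z _) (by rw [dist_comm]; exact h5) h4' h4 h6'⟩
  · filter_upwards [hg.loc t ht] with s hs i hi
    exact hs i (hQK _ (dist_pt z _) hi)

end Vale.Agent.P032.H695
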