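import Vale.Agent.P032.H695.Par
import Vale.Agent.P032.S5.H824.Two

/-!
# P032: parity at the full centres of a J-chain
-/

open Set Filter Topology Metric

noncomputable section

namespace Vale.Agent.P032.H695

open Vale.Agent.P032.Six Vale.Agent.P032.S5.H767

theorem cis_eq {x y : ℝ} (h : cis x = cis y) : ∃ n : ℤ, x = y + n * (2 * Real.pi) := by
  unfold cis at h
  obtain ⟨n, hn⟩ := Complex.exp_eq_exp_iff_exists_int.1 h
  refine ⟨n, ?_⟩
  have h1 : ((x : ℂ)) = y + n * (2 * Real.pi) := by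
    have h2 : (x : ℂ) * Complex.I = (y + n * (2 * Real.pi)) * Complex.I := by
      rw [hn]; ring
    exact mul_right_cancel₀ Complex.I_ne_zero h2
  exact_mod_cast h1

theorem cis_nat_pi (n : ℕ) : cis (n * Real.pi) = (-1) ^ n := by
  induction n with
  | zero => simp [cis]
  | succ n ih =>
    have : ((n + 1 : ℕ) : ℝ) * Real.pi = n * Real.pi + Real.pi := by push_cast; ring
    rw [this, cis_add169, ih]
    have h1 : cis Real.pi = -1 := by simp [cis, Complex.exp_pi_mul_I]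
    rw [h1, pow_succ]

/-- the moving end in the angle coordinate of `pt` -/
theorem arcPt_eq (V : ℕ → ℂ) (i : ℕ) (θ : ℝ) :
    arcPt V i θ = pt (V (i + 1)) ((θ + (i + 1 : ℕ) * Real.pi) / (Real.pi / 3)) := by
  have hpi := Real.pi_pos
  unfold arcPt pt
  have : (θ + (i + 1 : ℕ) * Real.pi) / (Real.pi / 3) * (Real.pi / 3) =
      θ + (i + 1 : ℕ) * Real.pi := by
    field_simp
  rw [this, cis_add169, cis_nat_pi]; ring

theorem continuous_arcPt (V : ℕ → ℂ) (i : ℕ) : Continuous (arcPt V i) := by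
  unfold arcPt
  exact continuous_const.add (continuous_const.mul continuous_cis)

variable {U : Fin 6 → Set ℂ} {T : ℂ → Set (Fin 6)} {z : ℂ} {a b c d e f : Fin 6}

/-- a two-pair point is a four coloured centre -/
theorem ctr_of (h : Irr U T) (hz : DPt T z a b c d) (hnd : [a, b, c, d, e, f].Nodup) :
    Ctr U T z a b c d e f :=
  ⟨h, hz.pal, hnd, fun y hy hloc hsub => h.twoPairs hz y hy hloc hsub⟩

variable {V : ℕ → ℂ} {ρ : ℕ → ℝ} {S : Set (Fin 6)} {C : ℕ → Set (Fin 6)}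

theorem T_end (J : JCh T V ρ S C) (i : ℕ) {θ : ℝ} (hθ : θ ∈ uIcc (ρ i) (ρ (i + 1))) :
    T (arcPt V i θ) = C (i + 1) ∨ T (arcPt V i θ) = S := by
  have e0 : arcPt V i (ρ i) = V i := by
    have h1 := J.rods.edge i
    unfold arcPt
    rw [h1, pow_succ]; ring
  have e1 : arcPt V i (ρ (i + 1)) = V (i + 2) := (J.rods.edge (i + 1)).symm
  by_cases h1 : θ = ρ i
  · right; rw [h1, e0]; exact J.pal i
  by_cases h2 : θ = ρ (i + 1)
  · right; rw [h2, e1]; exact J.pal (i + 2)
  left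
  refine J.arc i θ ?_
  rw [mem_uIcc] at hθ
  rcases hθ with h3 | h3
  · exact mem_uIoo_of_lt (lt_of_le_of_ne h3.1 (Ne.symm h1)) (lt_of_le_of_ne h3.2 h2)
  · exact mem_uIoo_of_gt (lt_of_le_of_ne h3.1 (Ne.symm h2)) (lt_of_le_of_ne h3.2 h1)

/-- the exact arcs with the palette of the full pair accumulate only at the closed full arc -/
theorem closure_ex (J : JCh T V ρ S C) (i : ℕ) {q : ℂ}
    (hq : q ∈ closure (Ex T (V (i + 1)) (C (i + 1)))) :
    ∃ θ ∈ uIcc (ρ i) (ρ (i + 1)), q = arcPt V i θ := by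
  have h1 : IsClosed (arcPt V i '' uIcc (ρ i) (ρ (i + 1))) :=
    (isCompact_uIcc.image (continuous_arcPt V i)).isClosed
  have h2 : closure (Ex T (V (i + 1)) (C (i + 1))) ⊆ arcPt V i '' uIcc (ρ i) (ρ (i + 1)) := by
    refine closure_minimal (fun y hy => ?_) h1
    obtain ⟨θ, hθ, hyθ⟩ := J.only i y hy.1 (ex_self hy)
    exact ⟨θ, ⟨hθ.1.le, hθ.2.le⟩, hyθ.symm⟩
  obtain ⟨θ, hθ, hqθ⟩ := h2 hq
  exact ⟨θ, hθ, hqθ.symm⟩

/-- **Parity at a full centre of a J-chain.** -/
theorem _root_.Vale.Agent.P032.Six.JCh.par (h : Irr U T) (J : JCh T V ρ S C) {i : ℕ} (hC : C (i + 1) = {a, b})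
    (hz : DPt T (V (i + 1)) a b c d) (hnd : [a, b, c, d, e, f].Nodup)
    (hsw : ∀ y y', dist y (V (i + 1)) = 1 → dist y' (V (i + 1)) = 1 → dist y y' = 1 →
      4 ≤ (T y).ncard ∨ 4 ≤ (T y').ncard →
      (∀ q, dist q (V (i + 1)) = 1 → e ∈ T q → f ∈ T q → q ∉ closure (Ex T (V (i + 1)) {a, b}) ∧
        q ∉ closure (Ex T (V (i + 1)) {c, d})) →
      y ∉ closure (Ex T (V (i + 1)) {a, b}) → y' ∉ closure (Ex T (V (i + 1)) {a, b}) →
      ¬ Swp T (V (i + 1)) a b c d e f y y') :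
    Par T (V (i + 1)) e f := by
  have hpi := Real.pi_pos
  have Cc := ctr_of h hz hnd
  have hS : S = {a, b, c, d} := by rw [← hz.pal]; exact (J.pal (i + 1)).symm
  have hn := hnd
  simp only [List.nodup_cons, List.mem_cons, List.not_mem_nil, or_false, not_or, List.nodup_nil,
    and_true, not_false_eq_true] at hn
  obtain ⟨⟨ab, ac, ad, ae, af⟩, ⟨bc, bd, be, bf⟩, ⟨cd, ce, cf⟩, ⟨de, df⟩, ef⟩ := hn
  set m := min (ρ i) (ρ (i + 1)) with hm
  set L := max (ρ i) (ρ (i + 1)) - min (ρ i) (ρ (i + 1)) with hL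
  have hL0 : 0 ≤ L := by rw [hL]; linarith [min_le_max (a := ρ i) (b := ρ (i + 1))]
  have hL1 : L ≤ Real.pi / 3 := by
    have h1 := J.rods.le i
    rw [hL, max_sub_min_eq_abs']
    rwa [abs_sub_comm]
  -- the points of the closed arc
  have hpt : ∀ t : ℝ, pt (V (i + 1)) ((m + (i + 1 : ℕ) * Real.pi) / (Real.pi / 3) + t) =
      arcPt V i (m + t * (Real.pi / 3)) := by
    intro t
    rw [arcPt_eq]
    congr 1
    field_simp
    ring
  have hmem : ∀ t ∈ Icc (0 : ℝ) (L / (Real.pi / 3)), m + t * (Real.pi / 3) ∈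
      uIcc (ρ i) (ρ (i + 1)) := by
    intro t ht
    have h1 : t * (Real.pi / 3) ≤ L := by
      have := ht.2
      rwa [le_div_iff₀ (by positivity)] at this
    have h2 : 0 ≤ t * (Real.pi / 3) := mul_nonneg ht.1 (by positivity)
    show _ ∈ Icc (min (ρ i) (ρ (i + 1))) (max (ρ i) (ρ (i + 1)))
    constructor
    · rw [← hm]; linarith
    · rw [← hm] at hL; linarith
  refine Ctr.par Cc (u0 := (m + (i + 1 : ℕ) * Real.pi) / (Real.pi / 3)) (α := L / (Real.pi / 3))
    (by positivity) (by rw [div_le_one (by positivity)]; exact hL1) (fun t ht => ?_)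
    (fun t ht hcl => ?_) (fun t ht hcl => ?_) fun htr y y' hy hy' hyy hy2 hy2' => ?_
  · rw [hpt]
    rcases T_end J i (hmem t ht) with h1 | h1
    · rw [h1, hC]
      constructor
      · simp [Ne.symm ae, Ne.symm be]
      · simp [Ne.symm af, Ne.symm bf]
    · rw [h1, hS]
      constructor
      · simp [Ne.symm ae, Ne.symm be, Ne.symm ce, Ne.symm de]
      · simp [Ne.symm af, Ne.symm bf, Ne.symm cf, Ne.symm df]
  · rw [← hC] at hcl
    obtain ⟨θ, hθ, hq⟩ := closure_ex J i hcl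
    rw [hpt] at hq
    unfold arcPt at hq
    have h1 : cis (m + t * (Real.pi / 3)) = cis θ := by
      have h2 := add_left_cancel hq
      have h3 : ((-1 : ℂ)) ^ (i + 1) ≠ 0 := pow_ne_zero _ (by norm_num)
      exact mul_left_cancel₀ h3 h2
    obtain ⟨n, hn⟩ := cis_eq h1
    have hθ' : θ ∈ Icc (min (ρ i) (ρ (i + 1))) (max (ρ i) (ρ (i + 1))) := hθ
    have b1 : L < t * (Real.pi / 3) := by
      have := ht.1
      rwa [div_lt_iff₀ (by positivity)] at this
    have b2 : t * (Real.pi / 3) < 2 * Real.pi := by nlinarith [ht.2]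
    rw [← hm] at hθ' hL
    have b3 : 0 < (n : ℝ) * (2 * Real.pi) := by linarith [hθ'.2]
    have b4 : (n : ℝ) * (2 * Real.pi) < 2 * Real.pi := by linarith [hθ'.1]
    have c1 : (0 : ℝ) < n := by
      by_contra hc
      have : (n : ℝ) * (2 * Real.pi) ≤ 0 := mul_nonpos_of_nonpos_of_nonneg (not_lt.1 hc)
        (by positivity)
      linarith
    have c2 : (n : ℝ) < 1 := by
      by_contra hc
      have : 1 * (2 * Real.pi) ≤ (n : ℝ) * (2 * Real.pi) :=
        mul_le_mul_of_nonneg_right (not_lt.1 hc) (by positivity)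
      linarith
    have c3 : (0 : ℤ) < n := by exact_mod_cast c1
    have c4 : n < (1 : ℤ) := by exact_mod_cast c2
    omega
  · have e1 : (m + (i + 1 : ℕ) * Real.pi) / (Real.pi / 3) + 3 + t =
        (m + (i + 1 : ℕ) * Real.pi) / (Real.pi / 3) + t + 3 := by ring
    rw [e1, pt_three, hpt] at hcl
    have h1 : ({a, b} : Set (Fin 6)) ⊆ T (arcPt V i (m + t * (Real.pi / 3))) := by
      rcases T_end J i (hmem t ht) with h1 | h1
      · rw [h1, hC]
      · rw [h1, hS]
        rintro x (rfl | hx)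
        · exact Or.inl rfl
        · rw [mem_singleton_iff] at hx
          exact Or.inr (Or.inl hx)
    have h2 := sub_of_closure h hcl
    have h3 : dist (arcPt V i (m + t * (Real.pi / 3))) (V (i + 1)) = 1 := by
      rw [← hpt]; exact dist_pt _ _
    exact h.anti hz h3 (h.sub _ (h1 (Or.inl rfl))) (h.sub _ (h1 (Or.inr rfl)))
      (h.sub _ (h2 (Or.inl rfl))) (h.sub _ (h2 (Or.inr rfl)))
  · by_cases h4 : 4 ≤ (T y).ncard ∨ 4 ≤ (T y').ncard
    · exact hsw y y' hy hy' hyy h4 htr hy2 hy2'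
    · push Not at h4
      rintro ⟨l, n, hln, k1, k2, k3, k4⟩
      exact Cc.noswap hln hyy (by omega) (by omega) k1 k2 k3 k4

end Vale.Agent.P032.H695
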