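import Vale.Agent.P032.H824.Cone

/-!
# P032: the cone rule at the middle point of a double conveyor

`x = z + cis α`, its two neighbours on `S(z)` are `z + cis (α ± π/3)`.  If the colour `e` is present
on the half branch `τ` of `S(z)` at both neighbours, then near `x` the colour `e` is present only in
a cone of 120 degrees, so a half branch `σ` of a circle `S(w)`, `w = x + cis (α + γ)`, with the
colour `e` has `1/2 ≤ σ τ cos γ`.
-/

open Set Filter Topology Metric

noncomputable section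

namespace Vale.Agent.P032.Six

variable {k : ℕ} {U : Fin k → Set ℂ} {T : ℂ → Set (Fin k)}

/-- the sign in angles -/
theorem sg_cis695 (v : ℂ) (φ θ : ℝ) :
    sg (v + cis φ) v (v + cis θ) = Real.sin (θ - φ) := by
  unfold sg cr
  rw [Real.sin_sub]
  simp only [Complex.sub_re, Complex.sub_im, Complex.add_re, Complex.add_im, cis_re, cis_im]
  ring

theorem cis_add_pi695 (t : ℝ) : cis (t + Real.pi) = -cis t := by
  apply Complex.ext <;> simp [cis_re, cis_im]

theorem cis_third695 (α : ℝ) : cis α - cis (α + Real.pi / 3) = cis (α - Real.pi / 3) := by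
  have h1 : Real.cos (Real.pi / 3) = 1 / 2 := Real.cos_pi_div_three
  have h2 : Real.sin (Real.pi / 3) = Real.sqrt 3 / 2 := Real.sin_pi_div_three
  apply Complex.ext <;>
    simp only [Complex.sub_re, Complex.sub_im, cis_re, cis_im, Real.cos_add, Real.sin_add,
      Real.cos_sub, Real.sin_sub, h1, h2] <;> ring

theorem cis_third695' (α : ℝ) : cis α - cis (α - Real.pi / 3) = cis (α + Real.pi / 3) := by
  have h1 : Real.cos (Real.pi / 3) = 1 / 2 := Real.cos_pi_div_three
  have h2 : Real.sin (Real.pi / 3) = Real.sqrt 3 / 2 := Real.sin_pi_div_three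
  apply Complex.ext <;>
    simp only [Complex.sub_re, Complex.sub_im, cis_re, cis_im, Real.cos_add, Real.sin_add,
      Real.cos_sub, Real.sin_sub, h1, h2] <;> ring

/-- a colour which is frequent on a half branch of `S(w)` at `x`, and absent near `x` outside
`D(v)`: the half branch does not go outside -/
theorem branch_not_out695 {w x v : ℂ} {σ : ℝ} {i : Fin k} (hv : dist v x = 1)
    (ha : ∀ᶠ y in 𝓝 x, 1 < dist y v → i ∉ Pal U y)
    (hi : ∃ᶠ t : ℝ in 𝓝[>] 0, i ∈ Pal U (hb w x σ t)) : σ * sg w x v ≤ 0 := by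
  by_contra hcon
  push Not at hcon
  obtain ⟨t, h1, h2, h3⟩ :=
    (hi.and_eventually ((hb_out hv hcon).and ((tendsto_hb w x σ).eventually ha))).exists
  exact h3 h2 h1

theorem branch_not_in695 {w x v : ℂ} {σ : ℝ} {i : Fin k} (hv : dist v x = 1)
    (ha : ∀ᶠ y in 𝓝 x, dist y v < 1 → i ∉ Pal U y)
    (hi : ∃ᶠ t : ℝ in 𝓝[>] 0, i ∈ Pal U (hb w x σ t)) : 0 ≤ σ * sg w x v := by
  by_contra hcon
  push Not at hcon
  obtain ⟨t, h1, h2, h3⟩ :=
    (hi.and_eventually ((hb_in hv hcon).and ((tendsto_hb w x σ).eventually ha))).exists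
  exact h3 h2 h1

/-- **The cone rule**: `e` on the half branch `τ` of `S(z)` at both neighbours of `x = z + cis α`,
`e` frequent on the half branch `σ` of `S(w)` at `x`, `w = x + cis (α + γ)`. -/
theorem Mx.cone_gap695 (h : Mx U) {z : ℂ} {α γ τ σ : ℝ} {i : Fin k}
    (hτ : τ = 1 ∨ τ = -1) (hσ : σ = 1 ∨ σ = -1)
    (h1 : ∀ᶠ t : ℝ in 𝓝[>] 0, i ∈ Pal U (hb z (z + cis (α + Real.pi / 3)) τ t))
    (h2 : ∀ᶠ t : ℝ in 𝓝[>] 0, i ∈ Pal U (hb z (z + cis (α - Real.pi / 3)) τ t))
    (h3 : ∃ᶠ t : ℝ in 𝓝[>] 0,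
      i ∈ Pal U (hb (z + cis α + cis (α + γ)) (z + cis α) σ t)) :
    1 / 2 ≤ σ * τ * Real.cos γ := by
  set x := z + cis α with hx
  set p := z + cis (α + Real.pi / 3) with hp
  set q := z + cis (α - Real.pi / 3) with hq
  -- positions
  have ep : p = x + cis (α + 2 * (Real.pi / 3)) := by
    have e1 := cis_third695 α
    have e2 : cis (α + 2 * (Real.pi / 3)) = -cis (α - Real.pi / 3) := by
      rw [← cis_add_pi695]; congr 1; ring
    rw [hp, hx, e2, ← e1]; ring
  have eq' : q = x + cis (α - 2 * (Real.pi / 3)) := by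
    have e1 := cis_third695' α
    have e2 : cis (α - 2 * (Real.pi / 3)) = -cis (α + Real.pi / 3) := by
      rw [← cis_add_pi695]
      have : cis (α - 2 * (Real.pi / 3)) = cis (α + Real.pi / 3 + Real.pi) := by
        have e3 : α + Real.pi / 3 + Real.pi = α - 2 * (Real.pi / 3) + 2 * Real.pi := by ring
        rw [e3]
        apply Complex.ext <;> simp [cis_re, cis_im]
      rw [this]
    rw [hq, hx, e2, ← e1]; ring
  have hxp : dist x p = 1 := by
    rw [ep, dist_eq_norm, sub_add_cancel_left, norm_neg, norm_cis]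
  have hxq : dist x q = 1 := by
    rw [eq', dist_eq_norm, sub_add_cancel_left, norm_neg, norm_cis]
  -- signs at the neighbours
  have s1 : sg z p x = Real.sin (Real.pi / 3) := by
    have e1 : z = p + cis (α + Real.pi / 3 + Real.pi) := by
      rw [cis_add_pi695, hp]; ring
    have e2 : x = p + cis (α - Real.pi / 3) := by
      rw [← cis_third695, hp, hx]; ring
    calc sg z p x = sg (p + cis (α + Real.pi / 3 + Real.pi)) p (p + cis (α - Real.pi / 3)) := by
          rw [← e1, ← e2]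
      _ = Real.sin (α - Real.pi / 3 - (α + Real.pi / 3 + Real.pi)) := sg_cis695 _ _ _
      _ = Real.sin (Real.pi / 3) := by
          have : α - Real.pi / 3 - (α + Real.pi / 3 + Real.pi) = Real.pi / 3 - 2 * Real.pi := by
            ring
          rw [this, Real.sin_sub_two_pi]
  have s2 : sg z q x = -Real.sin (Real.pi / 3) := by
    have e1 : z = q + cis (α - Real.pi / 3 + Real.pi) := by
      rw [cis_add_pi695, hq]; ring
    have e2 : x = q + cis (α + Real.pi / 3) := by
      rw [← cis_third695', hq, hx]; ring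
    calc sg z q x = sg (q + cis (α - Real.pi / 3 + Real.pi)) q (q + cis (α + Real.pi / 3)) := by
          rw [← e1, ← e2]
      _ = Real.sin (α + Real.pi / 3 - (α - Real.pi / 3 + Real.pi)) := sg_cis695 _ _ _
      _ = -Real.sin (Real.pi / 3) := by
          have : α + Real.pi / 3 - (α - Real.pi / 3 + Real.pi) = -(Real.pi / 3) := by ring
          rw [this, Real.sin_neg]
  have hs3 : 0 < Real.sin (Real.pi / 3) := by
    rw [Real.sin_pi_div_three]; positivity
  -- signs at `x`
  have t1 : sg (x + cis (α + γ)) x p = Real.sin (2 * (Real.pi / 3) - γ) := by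
    rw [ep, sg_cis695]; congr 1; ring
  have t2 : sg (x + cis (α + γ)) x q = -Real.sin (2 * (Real.pi / 3) + γ) := by
    rw [eq', sg_cis695, ← Real.sin_neg]; congr 1; ring
  have hsin : Real.sin (2 * (Real.pi / 3)) = Real.sqrt 3 / 2 := by
    have : 2 * (Real.pi / 3) = Real.pi - Real.pi / 3 := by ring
    rw [this, Real.sin_pi_sub, Real.sin_pi_div_three]
  have hcos : Real.cos (2 * (Real.pi / 3)) = -(1 / 2) := by
    have : 2 * (Real.pi / 3) = Real.pi - Real.pi / 3 := by ring
    rw [this, Real.cos_pi_sub, Real.cos_pi_div_three]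
  have a1 : Real.sin (2 * (Real.pi / 3) - γ) =
      Real.sqrt 3 / 2 * Real.cos γ + 1 / 2 * Real.sin γ := by
    rw [Real.sin_sub, hsin, hcos]; ring
  have a2 : Real.sin (2 * (Real.pi / 3) + γ) =
      Real.sqrt 3 / 2 * Real.cos γ - 1 / 2 * Real.sin γ := by
    rw [Real.sin_add, hsin, hcos]; ring
  have hsq : Real.sqrt 3 * Real.sqrt 3 = 3 := Real.mul_self_sqrt (by norm_num)
  have hs30 : 0 < Real.sqrt 3 := by positivity
  have hcs := Real.sin_sq_add_cos_sq γ
  -- the key: c = cos, with the sign ρ = σ τ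
  have key : ∀ ρ : ℝ, (ρ = 1 ∨ ρ = -1) → 0 ≤ ρ * Real.sin (2 * (Real.pi / 3) - γ) →
      0 ≤ ρ * Real.sin (2 * (Real.pi / 3) + γ) → 1 / 2 ≤ ρ * Real.cos γ := by
    intro ρ hρ b1 b2
    rw [a1] at b1
    rw [a2] at b2
    have b3 : 0 ≤ ρ * Real.cos γ := by
      have : 0 ≤ Real.sqrt 3 * (ρ * Real.cos γ) := by linarith
      exact nonneg_of_mul_nonneg_right this hs30
    have hρ2 : ρ ^ 2 = 1 := by rcases hρ with rfl | rfl <;> norm_num
    have b4 : |Real.sin γ| ≤ Real.sqrt 3 * (ρ * Real.cos γ) := by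
      rcases hρ with rfl | rfl
      · rw [abs_le]; constructor <;> linarith
      · rw [abs_le]; constructor <;> linarith
    have b5 : Real.sin γ ^ 2 ≤ 3 * (ρ * Real.cos γ) ^ 2 := by
      have := mul_self_le_mul_self (abs_nonneg _) b4
      rw [abs_mul_abs_self] at this
      nlinarith
    have b6 : (ρ * Real.cos γ) ^ 2 = Real.cos γ ^ 2 := by rw [mul_pow, hρ2, one_mul]
    nlinarith
  rcases hτ with rfl | rfl
  · -- after-branches: `e` inside for p? sign computations
    have c1 : ∀ᶠ y in 𝓝 x, dist y p < 1 → i ∉ Pal U y :=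
      h.cone_in824 hxp (by rw [s1]; linarith) h1
    have c2 : ∀ᶠ y in 𝓝 x, 1 < dist y q → i ∉ Pal U y :=
      h.cone_out824 hxq (by rw [s2]; linarith) h2
    have d1 := branch_not_in695 (by rw [dist_comm]; exact hxp) c1 h3
    have d2 := branch_not_out695 (by rw [dist_comm]; exact hxq) c2 h3
    rw [t1] at d1
    rw [t2] at d2
    have := key σ hσ d1 (by linarith)
    simpa using this
  · have c1 : ∀ᶠ y in 𝓝 x, 1 < dist y p → i ∉ Pal U y :=
      h.cone_out824 hxp (by rw [s1]; linarith) h1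
    have c2 : ∀ᶠ y in 𝓝 x, dist y q < 1 → i ∉ Pal U y :=
      h.cone_in824 hxq (by rw [s2]; linarith) h2
    have d1 := branch_not_out695 (by rw [dist_comm]; exact hxp) c1 h3
    have d2 := branch_not_in695 (by rw [dist_comm]; exact hxq) c2 h3
    rw [t1] at d1
    rw [t2] at d2
    have := key (-σ) (by rcases hσ with rfl | rfl <;> norm_num) (by linarith) (by linarith)
    linarith

/-- the form used for the end words: the partner is not at an angle in `(60°, 120°)` -/
theorem Mx.no_gap695 (h : Mx U) {z : ℂ} {α γ τ σ : ℝ} {i : Fin k}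
    (hτ : τ = 1 ∨ τ = -1) (hσ : σ = 1 ∨ σ = -1)
    (h1 : ∀ᶠ t : ℝ in 𝓝[>] 0, i ∈ Pal U (hb z (z + cis (α + Real.pi / 3)) τ t))
    (h2 : ∀ᶠ t : ℝ in 𝓝[>] 0, i ∈ Pal U (hb z (z + cis (α - Real.pi / 3)) τ t))
    (h3 : ∃ᶠ t : ℝ in 𝓝[>] 0,
      i ∈ Pal U (hb (z + cis α + cis (α + γ)) (z + cis α) σ t))
    (h4 : Real.pi / 3 < |γ|) (h5 : |γ| ≤ 2 * (Real.pi / 3)) : |γ| = 2 * (Real.pi / 3) := by
  have key := h.cone_gap695 hτ hσ h1 h2 h3
  have hc : Real.cos γ < 1 / 2 := by
    rw [← Real.cos_abs γ, ← Real.cos_pi_div_three]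
    exact Real.cos_lt_cos_of_nonneg_of_le_pi (by positivity) (by linarith [Real.pi_pos]) h4
  have hc2 : -(1 / 2) ≤ Real.cos γ := by
    have e : Real.cos (2 * (Real.pi / 3)) = -(1 / 2) := by
      have : 2 * (Real.pi / 3) = Real.pi - Real.pi / 3 := by ring
      rw [this, Real.cos_pi_sub, Real.cos_pi_div_three]
    rw [← Real.cos_abs γ, ← e]
    exact Real.cos_le_cos_of_nonneg_of_le_pi (abs_nonneg _) (by linarith [Real.pi_pos]) h5
  have hc3 : Real.cos γ = -(1 / 2) := by
    rcases hτ with rfl | rfl <;> rcases hσ with rfl | rfl <;> linarith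
  have e : Real.cos (2 * (Real.pi / 3)) = -(1 / 2) := by
    have : 2 * (Real.pi / 3) = Real.pi - Real.pi / 3 := by ring
    rw [this, Real.cos_pi_sub, Real.cos_pi_div_three]
  refine Real.injOn_cos ⟨abs_nonneg _, by linarith [Real.pi_pos]⟩
    ⟨by positivity, by linarith [Real.pi_pos]⟩ ?_
  rw [Real.cos_abs, hc3, e]

end Vale.Agent.P032.Six
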