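import Vale.Agent.P032.H180.Disc

/-!
# P032: the winding number of a full two-pair centre

`Cov Q` : three closed sets on the circle `ℝ / 6`, covering, without common point.  `Cov.full_odd`:
if `Q = {2}` on `[3, 3 + α]`, `2 ∉ Q` on `[6, 6 + α]`, and `Q t`, `Q (t + 1)` are incomparable for
`3 + α < t < 8`, then the winding number is odd; in particular there is no periodic primitive.
-/

open Set Filter Topology

noncomputable section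

namespace Vale.Agent.P032.H695

open Vale.Agent.P032.H180

/-- data on the circle -/
structure Cov (Q : ℝ → Set (Fin 3)) : Prop where
  per : ∀ t, Q (t + 6) = Q t
  ne : ∀ t, (Q t).Nonempty
  nu : ∀ t, ∃ i, i ∉ Q t
  usc : ∀ t, ∀ᶠ s in 𝓝 t, Q s ⊆ Q t

variable {Q : ℝ → Set (Fin 3)}

theorem Cov.not_distinct (h : Cov Q) {t : ℝ} {i j l : Fin 3} (hi : i ∈ Q t) (hj : j ∈ Q t)
    (hl : l ∈ Q t) : ¬ (i ≠ j ∧ j ≠ l ∧ i ≠ l) := by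
  rintro ⟨h1, h2, h3⟩
  obtain ⟨m, hm⟩ := h.nu t
  have : m = i ∨ m = j ∨ m = l := by
    revert h1 h2 h3; revert i j l m; intro i j l; fin_cases i <;> fin_cases j <;> fin_cases l <;>
      simp <;> intro _ _ _ m <;> fin_cases m <;> simp
  rcases this with rfl | rfl | rfl <;> exact hm ‹_›

theorem Cov.tor (h : Cov Q) {G : Type*} [AddCommGroup G] (f : Fin 3 → Fin 3 → G)
    (hf : ∀ i j l, ¬ (i ≠ j ∧ j ≠ l ∧ i ≠ l) → f i j + f j l = f i l) (B : Set ℝ) :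
    Tor B Q fun _ => f :=
  ⟨fun t _ => h.ne t, fun _ _ _ hi _ hj _ hl => hf _ _ _ (h.not_distinct hi hj hl),
    fun t _ => mem_nhdsWithin_of_mem_nhds ((h.usc t).mono fun _ hs => ⟨hs, fun _ _ _ _ => rfl⟩)⟩

theorem Cov.pair (h : Cov Q) (t : ℝ) : ∃ i j, i ∈ Q t ∧ j ∈ Q t ∧ ∀ l ∈ Q t, l = i ∨ l = j := by
  obtain ⟨i, hi⟩ := h.ne t
  by_cases hex : ∃ j ∈ Q t, j ≠ i
  · obtain ⟨j, hj, hji⟩ := hex
    refine ⟨i, j, hi, hj, fun l hl => ?_⟩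
    by_contra hcon
    push Not at hcon
    exact h.not_distinct hi hj hl ⟨hji.symm, hcon.2.symm, hcon.1.symm⟩
  · push Not at hex
    exact ⟨i, i, hi, hi, fun l hl => Or.inl (hex l hl)⟩

/-- the integer lift -/
theorem Cov.lift (h : Cov Q) : ∃ ℓ : ℝ → Fin 3 → ℤ,
    Sec (Icc (0 : ℝ) 12) Q (fun _ => dz) ℓ ∧
      ∀ t ∈ Icc (0 : ℝ) 12, ∀ i ∈ Q t, (3 : ℤ) ∣ ℓ t i - (i : ℕ) := by
  obtain ⟨ℓ, hℓ⟩ := interval (by norm_num) (h.tor dz dz_coc (Icc (0 : ℝ) 12))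
  have h3 : Sec (Icc (0 : ℝ) 12) Q (fun _ i j => ((dz i j : ℤ) : ZMod 3))
      fun t i => (ℓ t i : ZMod 3) := by
    refine ⟨fun t ht i hi j hj => ?_, fun t ht => ?_⟩
    · rw [hℓ.diff t ht i hi j hj]; push_cast; rfl
    · filter_upwards [hℓ.loc t ht] with s hs i hi
      rw [hs i hi]
  have h3' : Sec (Icc (0 : ℝ) 12) Q (fun _ i j => ((dz i j : ℤ) : ZMod 3))
      fun _ i => ((i : ℕ) : ZMod 3) :=
    ⟨fun _ _ i _ j _ => dz_cast i j, fun _ _ => Eventually.of_forall fun _ _ _ => rfl⟩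
  have ht3 : Tor (Icc (0 : ℝ) 12) Q (fun _ i j => ((dz i j : ℤ) : ZMod 3)) :=
    h.tor _ (fun i j l hijl => by rw [← dz_coc i j l hijl]; push_cast; rfl) _
  obtain ⟨c, hc⟩ := Sec.unique ht3 isPreconnected_Icc h3 h3'
  refine ⟨fun t i => ℓ t i + (-(c.val : ℤ)), hℓ.add _, fun t ht i hi => ?_⟩
  have h1 := hc t ht i hi
  have h2 : ((ℓ t i + (-(c.val : ℤ)) - ((i : ℕ) : ℤ) : ℤ) : ZMod 3) = 0 := by
    push_cast
    rw [h1, ZMod.natCast_zmod_val]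
    ring
  exact_mod_cast (ZMod.intCast_zmod_eq_zero_iff_dvd _ 3).1 h2

/-- the height -/
theorem Cov.exM (h : Cov Q) : ∃ (ℓ : ℝ → Fin 3 → ℤ) (M : ℝ → ℤ),
    Sec (Icc (0 : ℝ) 12) Q (fun _ => dz) ℓ ∧
      (∀ t ∈ Icc (0 : ℝ) 12, ∀ i ∈ Q t, (3 : ℤ) ∣ ℓ t i - (i : ℕ)) ∧
      (∀ t ∈ Icc (0 : ℝ) 12, ∀ l : Fin 3, l ∈ Q t ↔ Res (M t - 2 * (l : ℕ))) ∧
      (∀ t ∈ Icc (0 : ℝ) 12, ∀ᶠ s in 𝓝[Icc (0 : ℝ) 12] t, |M s - M t| ≤ 1) ∧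
      ∀ t ∈ Icc (0 : ℝ) 12, ∀ i ∈ Q t, |M t - 2 * ℓ t i| ≤ 1 := by
  obtain ⟨ℓ, hℓ, hd⟩ := h.lift
  choose I J hI hJ hIJ using h.pair
  refine ⟨ℓ, fun t => ℓ t (I t) + ℓ t (J t), hℓ, hd, fun t ht l => ?_, fun t ht => ?_,
    fun t ht i hi => ?_⟩
  · have h1 := mem_iff_mod (hd t ht _ (hI t)) (hℓ.diff t ht _ (hI t) _ (hJ t)).symm l
    unfold Res
    rw [← h1]
    exact ⟨hIJ t l, fun h2 => by rcases h2 with rfl | rfl; exacts [hI t, hJ t]⟩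
  · filter_upwards [hℓ.loc t ht, mem_nhdsWithin_of_mem_nhds (h.usc t), self_mem_nhdsWithin]
      with s hs hK hsB
    have e1 := hs _ (hI s)
    have e2 := hs _ (hJ s)
    have e3 := hℓ.diff t ht _ (hI t) _ (hJ t)
    have e4 := abs_dz (I t) (J t)
    have hKs : Q s ⊆ Q t := hK
    rw [e1, e2]
    rw [abs_le] at e4 ⊢
    rcases hIJ t _ (hKs (hI s)) with a | a <;> rcases hIJ t _ (hKs (hJ s)) with b | b <;>
      rw [a, b] <;> constructor <;> linarith [e4.1, e4.2]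
  · have e3 := hℓ.diff t ht _ (hI t) _ (hJ t)
    have e4 := abs_dz (I t) (J t)
    rw [abs_le] at e4 ⊢
    rcases hIJ t i hi with rfl | rfl <;> constructor <;> simp only <;> linarith [e4.1, e4.2]

/-- residue of the height of the label `2` -/
theorem res_two {m : ℤ} (h0 : ¬ Res (m - 2 * ((0 : Fin 3) : ℕ)))
    (h1 : ¬ Res (m - 2 * ((1 : Fin 3) : ℕ))) : m % 6 = 4 := by
  simp [Res] at h0 h1
  omega

/-- residues without the label `2` -/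
theorem res_not_two {m : ℤ} (h2 : ¬ Res (m - 2 * ((2 : Fin 3) : ℕ))) :
    m % 6 = 0 ∨ m % 6 = 1 ∨ m % 6 = 2 := by
  simp [Res] at h2
  omega

/-- a periodic primitive on `[0, 6]`: the height is periodic -/
theorem Cov.per_of_sec (h : Cov Q) {g : ℝ → Fin 3 → ℤ}
    (hg : Sec (Icc (0 : ℝ) 6) Q (fun _ => dz) g) (hper : ∀ i ∈ Q 0, g 6 i = g 0 i)
    {ℓ : ℝ → Fin 3 → ℤ} {M : ℝ → ℤ} (hℓ : Sec (Icc (0 : ℝ) 12) Q (fun _ => dz) ℓ)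
    (hM : ∀ t ∈ Icc (0 : ℝ) 12, ∀ l : Fin 3, l ∈ Q t ↔ Res (M t - 2 * (l : ℕ)))
    (hMloc : ∀ t ∈ Icc (0 : ℝ) 12, ∀ᶠ s in 𝓝[Icc (0 : ℝ) 12] t, |M s - M t| ≤ 1)
    (hMℓ : ∀ t ∈ Icc (0 : ℝ) 12, ∀ i ∈ Q t, |M t - 2 * ℓ t i| ≤ 1) :
    ∀ t ∈ Icc (0 : ℝ) 6, M (t + 6) = M t := by
  have hD : ∀ t ∈ Icc (0 : ℝ) 6, (M (t + 6) - M t) % 6 = 0 := by
    intro t ht
    have ht0 : t ∈ Icc (0 : ℝ) 12 := ⟨ht.1, by linarith [ht.2]⟩
    have ht1 : t + 6 ∈ Icc (0 : ℝ) 12 := ⟨by linarith [ht.1], by linarith [ht.2]⟩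
    apply eq_mod_of_res
    intro l
    rw [← hM t ht0 l, ← hM _ ht1 l, h.per]
  have hDloc : ∀ t ∈ Icc (0 : ℝ) 6, ∀ᶠ s in 𝓝[Icc (0 : ℝ) 6] t,
      M (s + 6) - M s = M (t + 6) - M t := by
    intro t ht
    have ht0 : t ∈ Icc (0 : ℝ) 12 := ⟨ht.1, by linarith [ht.2]⟩
    have ht1 : t + 6 ∈ Icc (0 : ℝ) 12 := ⟨by linarith [ht.1], by linarith [ht.2]⟩
    have h1 := (tendsto_add_Icc (t := t) (a := 0) (b := 6) (a' := 0) (b' := 12) (c := 6)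
      fun s hs => ⟨by linarith [hs.1], by linarith [hs.2]⟩).eventually (hMloc _ ht1)
    have h2 := nhdsWithin_mono t (Icc_subset_Icc le_rfl (by norm_num : (6 : ℝ) ≤ 12))
      (hMloc t ht0)
    filter_upwards [h1, h2, self_mem_nhdsWithin] with s hs1 hs2 hs
    have e1 := hD s hs
    have e2 := hD t ht
    rw [abs_le] at hs1 hs2
    omega
  have hW := const_of_loc hDloc
  have z0 : (0 : ℝ) ∈ Icc (0 : ℝ) 12 := ⟨le_rfl, by norm_num⟩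
  have z6 : (6 : ℝ) ∈ Icc (0 : ℝ) 12 := ⟨by norm_num, by norm_num⟩
  obtain ⟨c, hc⟩ := Sec.unique (h.tor dz dz_coc (Icc (0 : ℝ) 6)) isPreconnected_Icc
    (hℓ.mono (Icc_subset_Icc le_rfl (by norm_num : (6 : ℝ) ≤ 12))) hg
  obtain ⟨i, hi⟩ := h.ne 0
  have hi6 : i ∈ Q 6 := by
    have := h.per 0
    rw [zero_add] at this
    rw [this]; exact hi
  have e0 := hc 0 ⟨le_rfl, by norm_num⟩ i hi
  have e6 := hc 6 ⟨by norm_num, le_rfl⟩ i hi6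
  have e7 := hper i hi
  have b0 := hMℓ 0 z0 i hi
  have b6 := hMℓ 6 z6 i hi6
  have c0 := hD 0 ⟨le_rfl, by norm_num⟩
  rw [zero_add] at c0
  rw [abs_le] at b0 b6
  intro t ht
  have k := hW t ht 0 ⟨le_rfl, by norm_num⟩
  rw [zero_add] at k
  omega

/-- locally constant on an open interval -/
theorem const_Ioo {a b : ℝ} {f : ℝ → ℤ} (hf : ∀ t ∈ Ioo a b, ∀ᶠ s in 𝓝 t, f s = f t) :
    ∀ s ∈ Ioo a b, ∀ t ∈ Ioo a b, f s = f t := by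
  intro s hs t ht
  have hc : ContinuousOn f (Ioo a b) := fun x hx =>
    ((tendsto_const_nhds (x := f x)).congr' ((hf x hx).mono fun y hy => hy.symm)).mono_left
      nhdsWithin_le_nhds
  exact isPreconnected_Ioo.constant hc hs ht

theorem step_int {x N : ℤ} (h1 : (x - 2) / 6 = N) (h2 : x % 6 = 2 ∨ x % 6 = 3 ∨ x % 6 = 4) :
    6 * N + 2 ≤ x ∧ x ≤ 6 * N + 4 := by omega

theorem fin_int {m0 a1 a2 a3 b1 b2 b3 N K : ℤ} (v1 : (a1 - m0 - 2) / 6 = N)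
    (v2 : (a2 - a1 - 2) / 6 = N) (v3 : (a3 - a2 - 2) / 6 = N) (v4 : (b2 - b1 - 2) / 6 = N)
    (v5 : (b3 - b2 - 2) / 6 = N) (v6 : (m0 - b3 - 2) / 6 = N)
    (w1 : (a1 - m0) % 6 = 2 ∨ (a1 - m0) % 6 = 3 ∨ (a1 - m0) % 6 = 4)
    (w2 : (a2 - a1) % 6 = 2 ∨ (a2 - a1) % 6 = 3 ∨ (a2 - a1) % 6 = 4)
    (w3 : (a3 - a2) % 6 = 2 ∨ (a3 - a2) % 6 = 3 ∨ (a3 - a2) % 6 = 4)
    (w4 : (b2 - b1) % 6 = 2 ∨ (b2 - b1) % 6 = 3 ∨ (b2 - b1) % 6 = 4)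
    (w5 : (b3 - b2) % 6 = 2 ∨ (b3 - b2) % 6 = 3 ∨ (b3 - b2) % 6 = 4)
    (w6 : (m0 - b3) % 6 = 2 ∨ (m0 - b3) % 6 = 3 ∨ (m0 - b3) % 6 = 4)
    (x1 : (b1 - m0 - 2) / 6 = K) (x2 : (a3 - m0 - 2) / 6 = K)
    (x3 : (b1 - m0) % 6 = 2 ∨ (b1 - m0) % 6 = 3 ∨ (b1 - m0) % 6 = 4)
    (x4 : (a3 - m0) % 6 = 2 ∨ (a3 - m0) % 6 = 3 ∨ (a3 - m0) % 6 = 4) : False := by
  obtain ⟨p1, p1'⟩ := step_int v1 w1
  obtain ⟨p2, p2'⟩ := step_int v2 w2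
  obtain ⟨p3, p3'⟩ := step_int v3 w3
  obtain ⟨p4, p4'⟩ := step_int v4 w4
  obtain ⟨p5, p5'⟩ := step_int v5 w5
  obtain ⟨p6, p6'⟩ := step_int v6 w6
  obtain ⟨p7, p7'⟩ := step_int x1 x3
  obtain ⟨p8, p8'⟩ := step_int x2 x4
  clear v1 v2 v3 v4 v5 v6 w1 w2 w3 w4 w5 w6 x1 x2 x3 x4
  omega

/-- **The winding number of a full centre is odd**; in particular there is no periodic primitive. -/
theorem Cov.full_odd (h : Cov Q) {α : ℝ} (hα0 : 0 ≤ α) (hα1 : α ≤ 1)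
    (hX : ∀ t ∈ Icc (3 : ℝ) (3 + α), Q t ⊆ {2}) (hB : ∀ t ∈ Icc (6 : ℝ) (6 + α), 2 ∉ Q t)
    (hinc : ∀ t ∈ Ioo (3 + α) (8 : ℝ), ¬ Q t ⊆ Q (t + 1) ∧ ¬ Q (t + 1) ⊆ Q t)
    {g : ℝ → Fin 3 → ℤ} (hg : Sec (Icc (0 : ℝ) 6) Q (fun _ => dz) g)
    (hper : ∀ i ∈ Q 0, g 6 i = g 0 i) : False := by
  obtain ⟨ℓ, M, hℓ, hd, hM, hMloc, hMℓ⟩ := h.exM
  have hP := h.per_of_sec hg hper hℓ hM hMloc hMℓ
  have hloc : ∀ t ∈ Ioo (0 : ℝ) 12, ∀ᶠ s in 𝓝 t, s ∈ Ioo (0 : ℝ) 12 ∧ |M s - M t| ≤ 1 := by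
    intro t ht
    have h1 := hMloc t ⟨ht.1.le, ht.2.le⟩
    rw [nhdsWithin_eq_nhds.2 (Icc_mem_nhds ht.1 ht.2)] at h1
    filter_upwards [h1, Ioo_mem_nhds ht.1 ht.2] with s hs hs'
    exact ⟨hs', hs⟩
  have hM' : ∀ t ∈ Ioo (0 : ℝ) 12, ∀ l : Fin 3, l ∈ Q t ↔ Res (M t - 2 * (l : ℕ)) :=
    fun t ht => hM t ⟨ht.1.le, ht.2.le⟩
  -- heights of `{2}`
  have hr2 : ∀ t ∈ Ioo (0 : ℝ) 12, Q t ⊆ {2} → M t % 6 = 4 := by
    intro t ht hQ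
    refine res_two (fun hc => ?_) fun hc => ?_
    · have := hQ ((hM' t ht 0).2 hc)
      exact absurd this (by decide)
    · have := hQ ((hM' t ht 1).2 hc)
      exact absurd this (by decide)
  have hrn : ∀ t ∈ Ioo (0 : ℝ) 12, 2 ∉ Q t → M t % 6 = 0 ∨ M t % 6 = 1 ∨ M t % 6 = 2 := by
    intro t ht hQ
    exact res_not_two fun hc => hQ ((hM' t ht 2).2 hc)
  -- constant height near a point with `Q ⊆ {2}`
  have hstay : ∀ t ∈ Ioo (0 : ℝ) 12, Q t ⊆ {2} → ∀ᶠ s in 𝓝 t, M s = M t := by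
    intro t ht hQ
    filter_upwards [hloc t ht, h.usc t] with s hs hs'
    have e1 := hr2 s hs.1 (hs'.trans hQ)
    have e2 := hr2 t ht hQ
    have e3 := hs.2
    rw [abs_le] at e3
    omega
  have hX9 : ∀ t ∈ Icc (9 : ℝ) (9 + α), Q t ⊆ {2} := by
    intro t ht
    have h1 := h.per (t - 6)
    rw [sub_add_cancel] at h1
    rw [h1]
    exact hX _ ⟨by linarith [ht.1], by linarith [ht.2]⟩
  -- the height is constant on the closed arc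
  have hM0 : M (3 + α) = M 3 := by
    refine const_of_loc (a := 3) (b := 3 + α) (fun t ht => ?_) _ ⟨by linarith, le_rfl⟩ _
      ⟨le_rfl, by linarith⟩
    exact mem_nhdsWithin_of_mem_nhds
      (hstay t ⟨by linarith [ht.1], by linarith [ht.2]⟩ (hX t ht))
  have hM9 : M 9 = M 3 := by
    have := hP 3 ⟨by norm_num, by norm_num⟩
    norm_num at this
    exact this
  set m0 := M 3 with hm0
  have hm4 : m0 % 6 = 4 := hr2 3 ⟨by norm_num, by norm_num⟩ (hX 3 ⟨le_rfl, by linarith⟩)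
  -- choice of `s1`, slightly larger than `3 + α`
  have hn1 : ∀ᶠ s in 𝓝 (3 + α), M s = m0 := by
    have := hstay (3 + α) ⟨by linarith, by linarith⟩ (hX _ ⟨by linarith, le_rfl⟩)
    rwa [hM0] at this
  have hn2 : ∀ᶠ s in 𝓝 (6 + α), 2 ∉ Q s :=
    (h.usc (6 + α)).mono fun s hs h2 => hB _ ⟨by linarith, le_rfl⟩ (hs h2)
  have hn3 : ∀ᶠ s in 𝓝 (9 : ℝ), M s = m0 := by
    have := hstay 9 ⟨by norm_num, by norm_num⟩ (hX9 9 ⟨le_rfl, by linarith⟩)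
    rwa [hM9] at this
  have hn4 : ∀ᶠ s in 𝓝 (6 : ℝ), 2 ∉ Q s :=
    (h.usc 6).mono fun s hs h2 => hB _ ⟨le_rfl, by linarith⟩ (hs h2)
  obtain ⟨ε1, hε1, k1⟩ := Metric.eventually_nhds_iff.1 hn1
  obtain ⟨ε2, hε2, k2⟩ := Metric.eventually_nhds_iff.1 hn2
  obtain ⟨ε3, hε3, k3⟩ := Metric.eventually_nhds_iff.1 hn3
  obtain ⟨ε4, hε4, k4⟩ := Metric.eventually_nhds_iff.1 hn4
  obtain ⟨ε, hε, hε', e1, e2, e3, e4⟩ : ∃ ε : ℝ, 0 < ε ∧ ε < 1 / 2 ∧ ε < ε1 ∧ ε < ε2 ∧ ε < ε3 ∧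
      ε < ε4 := by
    refine ⟨min (min ε1 ε2) (min (min ε3 ε4) (1 / 2)) / 2, by positivity, ?_, ?_, ?_, ?_, ?_⟩
    all_goals
      have a1 := min_le_left (min ε1 ε2) (min (min ε3 ε4) (1 / 2))
      have a2 := min_le_right (min ε1 ε2) (min (min ε3 ε4) (1 / 2))
      have a3 := min_le_left ε1 ε2
      have a4 := min_le_right ε1 ε2
      have a5 := min_le_left (min ε3 ε4) (1 / 2)
      have a6 := min_le_right (min ε3 ε4) (1 / 2)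
      have a7 := min_le_left ε3 ε4
      have a8 := min_le_right ε3 ε4
      have a9 : 0 < min (min ε1 ε2) (min (min ε3 ε4) (1 / 2)) := by positivity
      linarith
  set s1 := 3 + α + ε with hs1
  have q1 : M s1 = m0 := k1 (by rw [Real.dist_eq, hs1]; rw [abs_of_pos] <;> linarith)
  have q3 : M (9 - ε) = m0 := k3 (by rw [Real.dist_eq, abs_of_neg] <;> linarith)
  have hB' : ∀ t ∈ Icc (6 - ε) (6 + α + ε), 2 ∉ Q t := by
    intro t ht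
    rcases lt_or_ge t 6 with h6 | h6
    · exact k4 (by rw [Real.dist_eq, abs_of_neg] <;> linarith [ht.1])
    · rcases le_or_gt t (6 + α) with h7 | h7
      · exact hB t ⟨h6, h7⟩
      · exact k2 (by rw [Real.dist_eq, abs_of_pos] <;> linarith [ht.2])
  -- the steps
  have hstep : ∀ t ∈ Ioo (3 + α) (8 : ℝ), (M (t + 1) - M t) % 6 = 2 ∨ (M (t + 1) - M t) % 6 = 3 ∨
      (M (t + 1) - M t) % 6 = 4 := by
    intro t ht
    have ht0 : t ∈ Ioo (0 : ℝ) 12 := ⟨by linarith [ht.1], by linarith [ht.2]⟩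
    have ht1 : t + 1 ∈ Ioo (0 : ℝ) 12 := ⟨by linarith [ht.1], by linarith [ht.2]⟩
    obtain ⟨i1, i2⟩ := hinc t ht
    apply incomparable_mod
    · rw [Set.not_subset] at i1
      obtain ⟨l, hl, hl'⟩ := i1
      exact ⟨l, (hM' t ht0 l).1 hl, fun hc => hl' ((hM' _ ht1 l).2 hc)⟩
    · rw [Set.not_subset] at i2
      obtain ⟨l, hl, hl'⟩ := i2
      exact ⟨l, (hM' _ ht1 l).1 hl, fun hc => hl' ((hM' _ ht0 l).2 hc)⟩
  have hN := const_Ioo (a := 3 + α) (b := 8) (f := fun t => (M (t + 1) - M t - 2) / 6) (by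
    intro t ht
    have ht0 : t ∈ Ioo (0 : ℝ) 12 := ⟨by linarith [ht.1], by linarith [ht.2]⟩
    have ht1 : t + 1 ∈ Ioo (0 : ℝ) 12 := ⟨by linarith [ht.1], by linarith [ht.2]⟩
    have h1 : ∀ᶠ s in 𝓝 t, s + 1 ∈ Ioo (0 : ℝ) 12 ∧ |M (s + 1) - M (t + 1)| ≤ 1 :=
      ((continuous_add_const 1).tendsto t).eventually (hloc _ ht1)
    filter_upwards [h1, hloc t ht0, Ioo_mem_nhds ht.1 ht.2] with s hs1 hs2 hs
    have e1 := hstep s hs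
    have e2 := hstep t ht
    have e3 := hs1.2
    have e4 := hs2.2
    rw [abs_le] at e3 e4
    omega)
  have hBc := const_of_loc (a := 6 - ε) (b := 6 + α + ε) (f := fun t => (M t - m0 - 2) / 6) (by
    intro t ht
    have ht0 : t ∈ Ioo (0 : ℝ) 12 := ⟨by linarith [ht.1], by linarith [ht.2]⟩
    filter_upwards [mem_nhdsWithin_of_mem_nhds (hloc t ht0), self_mem_nhdsWithin] with s hs1 hs2
    have e1 := hrn s hs1.1 (hB' s hs2)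
    have e2 := hrn t ht0 (hB' t ht)
    have e3 := hs1.2
    rw [abs_le] at e3
    omega)
  have u1 : s1 ∈ Ioo (3 + α) (8 : ℝ) := ⟨by linarith, by linarith⟩
  have u2 : s1 + 1 ∈ Ioo (3 + α) (8 : ℝ) := ⟨by linarith, by linarith⟩
  have u3 : s1 + 2 ∈ Ioo (3 + α) (8 : ℝ) := ⟨by linarith, by linarith⟩
  have u4 : 6 - ε ∈ Ioo (3 + α) (8 : ℝ) := ⟨by linarith, by linarith⟩
  have u5 : 7 - ε ∈ Ioo (3 + α) (8 : ℝ) := ⟨by linarith, by linarith⟩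
  have u6 : 8 - ε ∈ Ioo (3 + α) (8 : ℝ) := ⟨by linarith, by linarith⟩
  have v2 := hN _ u2 _ u1
  have v3 := hN _ u3 _ u1
  have v4 := hN _ u4 _ u1
  have v5 := hN _ u5 _ u1
  have v6 := hN _ u6 _ u1
  have w1 := hstep _ u1
  have w2 := hstep _ u2
  have w3 := hstep _ u3
  have w4 := hstep _ u4
  have w5 := hstep _ u5
  have w6 := hstep _ u6
  have x1 := hBc (6 - ε) ⟨le_rfl, by linarith⟩ (6 + α + ε) ⟨by linarith, le_rfl⟩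
  have x2 := hrn (6 - ε) ⟨by linarith, by linarith⟩ (hB' _ ⟨le_rfl, by linarith⟩)
  have x3 := hrn (6 + α + ε) ⟨by linarith, by linarith⟩ (hB' _ ⟨by linarith, le_rfl⟩)
  have y1 : s1 + 1 + 1 = s1 + 2 := by ring
  have y2 : s1 + 2 + 1 = 6 + α + ε := by rw [hs1]; ring
  have y3 : 6 - ε + 1 = 7 - ε := by ring
  have y4 : 7 - ε + 1 = 8 - ε := by ring
  have y5 : 8 - ε + 1 = 9 - ε := by ring
  simp only [y1, y2, y3, y4, y5] at v2 v3 v4 v5 v6 w1 w2 w3 w4 w5 w6 x1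
  rw [q1] at v2 v3 v4 v5 v6 w1
  rw [q3] at v6 w6
  refine fin_int rfl v2 v3 v4 v5 v6 w1 w2 w3 w4 w5 w6 x1 rfl ?_ ?_
  · clear v2 v3 v4 v5 v6 w1 w2 w3 w4 w5 w6 x1 x3; omega
  · clear v2 v3 v4 v5 v6 w1 w2 w3 w4 w5 w6 x1 x2; omega

end Vale.Agent.P032.H695
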