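import Vale.Agent.P032.H169.Chain
import Vale.Agent.P032.H695.Lift

/-!
# P032: KKM on the unit disc, torsor form

A closed cover `T'` of the plane without a point `u` of the closed disc of `z` with the colours
`e`, `f` and a third colour from the inside: the three labels `e`, `f`, `others from the inside`
have a periodic primitive on the circle.
-/

open Set Filter Topology Metric

noncomputable section

namespace Vale.Agent.P032.H695

open Vale.Agent.P032.Six Vale.Agent.P032.H180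

variable {k : ℕ} {T' : ℂ → Set (Fin k)} {z : ℂ} {e f : Fin k}

/-- the three labels: `e`, `f`, another colour from the inside -/
def KK (T' : ℂ → Set (Fin k)) (z : ℂ) (e f : Fin k) (w : ℂ) : Set (Fin 3) :=
  {l | (l = 0 ∧ e ∈ T' w) ∨ (l = 1 ∧ f ∈ T' w) ∨ (l = 2 ∧ ∃ x, x ≠ e ∧ x ≠ f ∧ InnO T' z w x)}

theorem KK_zero {w : ℂ} : 0 ∈ KK T' z e f w ↔ e ∈ T' w := by simp [KK]

theorem KK_one {w : ℂ} : 1 ∈ KK T' z e f w ↔ f ∈ T' w := by simp [KK]

theorem KK_two {w : ℂ} : 2 ∈ KK T' z e f w ↔ ∃ x, x ≠ e ∧ x ≠ f ∧ InnO T' z w x := by simp [KK]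

theorem KK_closed (hcl : ∀ i, IsClosed {x | i ∈ T' x}) (l : Fin 3) :
    IsClosed {w | l ∈ KK T' z e f w} := by
  have hl : l = 0 ∨ l = 1 ∨ l = 2 := by fin_cases l <;> simp
  rcases hl with rfl | rfl | rfl
  · simpa only [KK_zero] using hcl e
  · simpa only [KK_one] using hcl f
  · simp only [KK_two]
    have h1 : {w | ∃ x, x ≠ e ∧ x ≠ f ∧ InnO T' z w x} =
        ⋃ x ∈ {x : Fin k | x ≠ e ∧ x ≠ f}, closure {w | dist w z < 1 ∧ x ∈ T' w} := by
      ext w
      simp only [mem_iUnion, mem_ofPred_eq, exists_prop, InnO, and_assoc]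
    rw [h1]
    exact (Set.toFinite _).isClosed_biUnion fun x _ => isClosed_closure

/-- a point of the closed disc without `e`, `f` has another colour from the inside -/
theorem exists_inn (hcl : ∀ i, IsClosed {x | i ∈ T' x}) (hne : ∀ x, (T' x).Nonempty) {w : ℂ}
    (hw : dist w z ≤ 1) (he : e ∉ T' w) (hf : f ∉ T' w) : ∃ x, x ≠ e ∧ x ≠ f ∧ InnO T' z w x := by
  have h1 : w ∈ closure (ball z 1) := by
    rw [closure_ball z one_ne_zero]; exact hw
  have h2 : w ∈ closure (⋃ x ∈ {x : Fin k | x ≠ e ∧ x ≠ f}, {w | dist w z < 1 ∧ x ∈ T' w}) := by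
    rw [mem_closure_iff_nhds] at h1 ⊢
    intro V hV
    obtain ⟨v, ⟨⟨hvV, hve⟩, hvf⟩, hvz⟩ := h1 _ (inter_mem (inter_mem hV
      ((hcl e).isOpen_compl.mem_nhds he)) ((hcl f).isOpen_compl.mem_nhds hf))
    obtain ⟨x, hx⟩ := hne v
    refine ⟨v, hvV, mem_iUnion₂.2 ⟨x, ⟨fun h => hve (by rw [← h]; exact hx),
      fun h => hvf (by rw [← h]; exact hx)⟩, hvz, hx⟩⟩
  rw [(Set.toFinite _).closure_biUnion] at h2
  obtain ⟨x, hx, hxw⟩ := mem_iUnion₂.1 h2
  exact ⟨x, hx.1, hx.2, hxw⟩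

theorem all_three : ∀ i j l : Fin 3, i ≠ j → j ≠ l → i ≠ l → ∀ m, m = i ∨ m = j ∨ m = l := by
  decide

/-- the torsor on the disc -/
theorem tor_KK (hcl : ∀ i, IsClosed {x | i ∈ T' x}) (hne : ∀ x, (T' x).Nonempty)
    (hno : ¬ ∃ u x, dist u z ≤ 1 ∧ e ∈ T' u ∧ f ∈ T' u ∧ x ≠ e ∧ x ≠ f ∧ InnO T' z u x) :
    Tor (closedBall z 1) (KK T' z e f) fun _ => dz := by
  refine ⟨fun w hw => ?_, fun w hw i hi j hj l hl => ?_, fun w hw => ?_⟩
  · by_cases he : e ∈ T' w
    · exact ⟨0, KK_zero.2 he⟩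
    by_cases hf : f ∈ T' w
    · exact ⟨1, KK_one.2 hf⟩
    exact ⟨2, KK_two.2 (exists_inn hcl hne hw he hf)⟩
  · refine dz_coc i j l ?_
    rintro ⟨h1, h2, h3⟩
    have hall : ∀ m : Fin 3, m = i ∨ m = j ∨ m = l := all_three i j l h1 h2 h3
    have hin : ∀ m : Fin 3, m ∈ KK T' z e f w := by
      intro m
      rcases hall m with rfl | rfl | rfl <;> assumption
    obtain ⟨x, hx1, hx2, hx3⟩ := KK_two.1 (hin 2)
    exact hno ⟨w, x, hw, KK_zero.1 (hin 0), KK_one.1 (hin 1), hx1, hx2, hx3⟩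
  · have h1 : ∀ l, ∀ᶠ y in 𝓝 w, l ∈ KK T' z e f y → l ∈ KK T' z e f w := by
      intro l
      by_cases hl : l ∈ KK T' z e f w
      · exact Eventually.of_forall fun _ _ => hl
      · filter_upwards [(KK_closed hcl l).isOpen_compl.mem_nhds hl] with y hy hy'
        exact absurd hy' hy
    filter_upwards [mem_nhdsWithin_of_mem_nhds (eventually_all.2 h1)] with y hy
    exact ⟨fun l hl => hy l hl, fun _ _ _ _ => rfl⟩

/-- **the periodic primitive on the circle** -/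
theorem exists_sec (hcl : ∀ i, IsClosed {x | i ∈ T' x}) (hne : ∀ x, (T' x).Nonempty)
    (hno : ¬ ∃ u x, dist u z ≤ 1 ∧ e ∈ T' u ∧ f ∈ T' u ∧ x ≠ e ∧ x ≠ f ∧ InnO T' z u x) (θ : ℝ) :
    ∃ g, Sec (Icc (0 : ℝ) 6) (fun t => KK T' z e f (z + cis (θ + t * (Real.pi / 3))))
      (fun _ => dz) g ∧ ∀ i ∈ KK T' z e f (z + cis θ), g 6 i = g 0 i := by
  have hT := tor_KK hcl hne hno
  have hR := hT.comp (C := closedBall z 1) (p := fun w => z + cis θ * (w - z)) (by fun_prop)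
    fun w hw => by
      rw [mem_closedBall, dist_eq_norm] at hw ⊢
      rw [add_sub_cancel_left, norm_mul, norm_cis, one_mul]
      exact hw
  obtain ⟨g, hg, hg6⟩ := circle hR
  have e1 : ∀ t : ℝ, z + cis θ * (H180.pt z t - z) = z + cis (θ + t * (Real.pi / 3)) := by
    intro t
    unfold H180.pt cis
    rw [add_sub_cancel_left, ← Complex.exp_add]
    congr 2
    push_cast; ring
  refine ⟨g, hg.congr (fun t _ => ?_) fun t _ => rfl, fun i hi => hg6 i ?_⟩
  · simp only [e1]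
  · simp only [e1]
    rw [zero_mul, add_zero]; exact hi

end Vale.Agent.P032.H695
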